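import Mathlib

/-!
P299, helper465: one variable functions `GG τ x = -∫_x^1 ρ(t) (t² + τ²)^(-1/2) dt`, smooth
approximations of `log` cut off at `1`, used as weights with isolated poles.
-/

set_option linter.all false

open Filter Topology MeasureTheory intervalIntegral

namespace Vale.Agent.P299.H465

/-- Cut-off: `1` for `x ≤ 1/2`, `0` for `x ≥ 1`. -/
noncomputable def rho (x : ℝ) : ℝ := Real.smoothTransition (2 * (1 - x))

theorem rho_contDiff : ContDiff ℝ (⊤ : ℕ∞) rho :=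
  Real.smoothTransition.contDiff.comp (by fun_prop)

theorem rho_nonneg (x : ℝ) : 0 ≤ rho x := Real.smoothTransition.nonneg _

theorem rho_le_one (x : ℝ) : rho x ≤ 1 := Real.smoothTransition.le_one _

theorem rho_eq_one {x : ℝ} (hx : x ≤ 1 / 2) : rho x = 1 :=
  Real.smoothTransition.one_of_one_le (by linarith)

theorem rho_eq_zero {x : ℝ} (hx : 1 ≤ x) : rho x = 0 :=
  Real.smoothTransition.zero_of_nonpos (by linarith)

theorem rho_continuous : Continuous rho := rho_contDiff.continuous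

theorem rho_deriv_contDiff : ContDiff ℝ (⊤ : ℕ∞) (deriv rho) := by
  have h : ContDiff ℝ ((⊤ : ℕ∞) + 1) rho := rho_contDiff
  exact (contDiff_succ_iff_deriv.1 h).2.2

theorem deriv_rho_zero {x : ℝ} (hx : 1 ≤ x) : deriv rho x = 0 := by
  have h1 : ∀ y ∈ Set.Ioi (1 : ℝ), deriv rho y = 0 := by
    intro y hy
    have : rho =ᶠ[𝓝 y] fun _ => 0 := by
      filter_upwards [lt_mem_nhds hy] with z hz
      exact rho_eq_zero hz.le
    rw [this.deriv_eq]; simp
  have hc : Continuous (deriv rho) := rho_deriv_contDiff.continuous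
  have h2 : x ∈ closure (Set.Ioi (1 : ℝ)) := by rw [closure_Ioi]; exact hx
  have h3 : IsClosed {y | deriv rho y = 0} := isClosed_eq hc continuous_const
  exact closure_minimal (fun y hy => h1 y hy) h3 h2

theorem deriv_rho_zero' {x : ℝ} (hx : x ≤ 1 / 2) : deriv rho x = 0 := by
  have h1 : ∀ y ∈ Set.Iio (1 / 2 : ℝ), deriv rho y = 0 := by
    intro y hy
    have : rho =ᶠ[𝓝 y] fun _ => 1 := by
      filter_upwards [gt_mem_nhds hy] with z hz
      exact rho_eq_one hz.le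
    rw [this.deriv_eq]; simp
  have hc : Continuous (deriv rho) := rho_deriv_contDiff.continuous
  have h2 : x ∈ closure (Set.Iio (1 / 2 : ℝ)) := by rw [closure_Iio]; exact hx
  have h3 : IsClosed {y | deriv rho y = 0} := isClosed_eq hc continuous_const
  exact closure_minimal (fun y hy => h1 y hy) h3 h2

theorem exists_rho_bound : ∃ C0 : ℝ, 0 < C0 ∧ ∀ x, |deriv rho x| ≤ C0 := by
  have hc : Continuous (deriv rho) := rho_deriv_contDiff.continuous
  obtain ⟨B, hB⟩ := (isCompact_Icc (a := (0 : ℝ)) (b := 1)).exists_bound_of_continuousOn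
    hc.continuousOn
  refine ⟨max B 1, by positivity, fun x => ?_⟩
  by_cases hx : x ∈ Set.Icc (0 : ℝ) 1
  · exact (hB x hx).trans (le_max_left _ _)
  · rw [Set.mem_Icc, not_and_or, not_le, not_le] at hx
    rcases hx with hx | hx
    · rw [deriv_rho_zero' (by linarith), abs_zero]; positivity
    · rw [deriv_rho_zero hx.le, abs_zero]; positivity

/-- `(t² + τ²)^(-1/2)`. -/
noncomputable def kk (τ x : ℝ) : ℝ := (Real.sqrt (x ^ 2 + τ ^ 2))⁻¹

theorem sqrt_pos' {τ : ℝ} (hτ : 0 < τ) (x : ℝ) : 0 < Real.sqrt (x ^ 2 + τ ^ 2) :=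
  Real.sqrt_pos.2 (by positivity)

theorem kk_pos {τ : ℝ} (hτ : 0 < τ) (x : ℝ) : 0 < kk τ x := inv_pos.2 (sqrt_pos' hτ x)

theorem kk_contDiff {τ : ℝ} (hτ : 0 < τ) : ContDiff ℝ (⊤ : ℕ∞) (kk τ) := by
  unfold kk
  refine ContDiff.inv (ContDiff.sqrt (by fun_prop) fun x => by positivity) fun x =>
    (sqrt_pos' hτ x).ne'

theorem kk_continuous {τ : ℝ} (hτ : 0 < τ) : Continuous (kk τ) := (kk_contDiff hτ).continuous

theorem kk_mul_le {τ : ℝ} (hτ : 0 < τ) {x : ℝ} (hx : 0 ≤ x) : kk τ x * x ≤ 1 := by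
  rw [kk, inv_mul_le_iff₀ (sqrt_pos' hτ x), mul_one]
  exact Real.le_sqrt_of_sq_le (by nlinarith [sq_nonneg τ])

theorem kk_ge {τ : ℝ} (hτ : 0 < τ) {x : ℝ} (hx : 0 ≤ x) : (x + τ)⁻¹ ≤ kk τ x := by
  rw [kk]
  refine inv_anti₀ (sqrt_pos' hτ x) ?_
  refine Real.sqrt_le_iff.2 ⟨by positivity, ?_⟩
  nlinarith [mul_nonneg hx hτ.le]

theorem kk_anti {τ τ' : ℝ} (hτ : 0 < τ) (h : τ ≤ τ') (x : ℝ) : kk τ' x ≤ kk τ x := by
  rw [kk, kk]
  refine inv_anti₀ (sqrt_pos' hτ x) (Real.sqrt_le_sqrt ?_)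
  have : τ ^ 2 ≤ τ' ^ 2 := pow_le_pow_left₀ hτ.le h 2
  linarith

theorem kk_hasDerivAt {τ : ℝ} (hτ : 0 < τ) (x : ℝ) :
    HasDerivAt (kk τ) (-(x * kk τ x ^ 3)) x := by
  have h0 : 0 < x ^ 2 + τ ^ 2 := by positivity
  have h1 : HasDerivAt (fun x : ℝ => x ^ 2 + τ ^ 2) (2 * x) x := by
    simpa using (hasDerivAt_pow 2 x).add_const (τ ^ 2)
  have h2 := (h1.sqrt h0.ne').inv (sqrt_pos' hτ x).ne'
  refine h2.congr_deriv ?_
  have h3 := (sqrt_pos' hτ x).ne'
  rw [kk]
  field_simp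

theorem kk_deriv {τ : ℝ} (hτ : 0 < τ) (x : ℝ) : deriv (kk τ) x = -(x * kk τ x ^ 3) :=
  (kk_hasDerivAt hτ x).deriv

/-- `-∫_x^1 ρ(t) (t² + τ²)^(-1/2) dt`. -/
noncomputable def GG (τ x : ℝ) : ℝ := ∫ t in (1 : ℝ)..x, rho t * kk τ t

theorem GG_cont {τ : ℝ} (hτ : 0 < τ) : Continuous fun t => rho t * kk τ t :=
  rho_continuous.mul (kk_continuous hτ)

theorem GG_hasDerivAt {τ : ℝ} (hτ : 0 < τ) (x : ℝ) : HasDerivAt (GG τ) (rho x * kk τ x) x :=
  intervalIntegral.integral_hasDerivAt_right ((GG_cont hτ).intervalIntegrable _ _)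
    ((GG_cont hτ).stronglyMeasurableAtFilter _ _) (GG_cont hτ).continuousAt

theorem GG_deriv {τ : ℝ} (hτ : 0 < τ) : deriv (GG τ) = fun x => rho x * kk τ x :=
  funext fun x => (GG_hasDerivAt hτ x).deriv

theorem GG_contDiff {τ : ℝ} (hτ : 0 < τ) : ContDiff ℝ (⊤ : ℕ∞) (GG τ) := by
  have h : ContDiff ℝ ((⊤ : ℕ∞) + 1) (GG τ) := by
    rw [contDiff_succ_iff_deriv]
    refine ⟨fun x => (GG_hasDerivAt hτ x).differentiableAt, by simp, ?_⟩
    rw [GG_deriv hτ]
    exact rho_contDiff.mul (kk_contDiff hτ)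
  exact h

theorem GG_eq_zero {τ : ℝ} (hτ : 0 < τ) {x : ℝ} (hx : 1 ≤ x) : GG τ x = 0 := by
  unfold GG
  rw [intervalIntegral.integral_congr (g := fun _ => 0), intervalIntegral.integral_zero]
  intro t ht
  rw [Set.uIcc_of_le hx] at ht
  simp [rho_eq_zero ht.1]

theorem GG_le_zero {τ : ℝ} (hτ : 0 < τ) (x : ℝ) : GG τ x ≤ 0 := by
  rcases le_total 1 x with hx | hx
  · exact (GG_eq_zero hτ hx).le
  · unfold GG
    rw [intervalIntegral.integral_symm]
    have : 0 ≤ ∫ t in x..(1 : ℝ), rho t * kk τ t :=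
      intervalIntegral.integral_nonneg hx fun t _ => mul_nonneg (rho_nonneg t) (kk_pos hτ t).le
    linarith

theorem GG_anti {τ τ' : ℝ} (hτ : 0 < τ) (h : τ ≤ τ') (x : ℝ) : GG τ x ≤ GG τ' x := by
  have hτ' : 0 < τ' := lt_of_lt_of_le hτ h
  rcases le_total 1 x with hx | hx
  · rw [GG_eq_zero hτ hx, GG_eq_zero hτ' hx]
  · unfold GG
    rw [intervalIntegral.integral_symm, intervalIntegral.integral_symm x]
    have : ∫ t in x..(1 : ℝ), rho t * kk τ' t ≤ ∫ t in x..(1 : ℝ), rho t * kk τ t := by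
      refine intervalIntegral.integral_mono_on hx ((GG_cont hτ').intervalIntegrable _ _)
        ((GG_cont hτ).intervalIntegrable _ _) fun t _ => ?_
      exact mul_le_mul_of_nonneg_left (kk_anti hτ h t) (rho_nonneg t)
    linarith

theorem GG_ge {τ : ℝ} (hτ : 0 < τ) {x : ℝ} (hx : 1 / 2 ≤ x) : -1 ≤ GG τ x := by
  rcases le_total 1 x with hx1 | hx1
  · rw [GG_eq_zero hτ hx1]; norm_num
  · unfold GG
    rw [intervalIntegral.integral_symm]
    have h1 : ∫ t in x..(1 : ℝ), rho t * kk τ t ≤ ∫ t in x..(1 : ℝ), (2 : ℝ) := by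
      refine intervalIntegral.integral_mono_on hx1 ((GG_cont hτ).intervalIntegrable _ _)
        (by simp) fun t ht => ?_
      have h2 : 1 / 2 ≤ t := hx.trans ht.1
      have h3 : kk τ t * t ≤ 1 := kk_mul_le hτ (by linarith)
      have h4 : kk τ t ≤ 2 := by nlinarith [kk_pos hτ t]
      calc rho t * kk τ t ≤ 1 * kk τ t := by
            gcongr
            · exact (kk_pos hτ t).le
            · exact rho_le_one t
        _ ≤ 2 := by linarith
    rw [intervalIntegral.integral_const] at h1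
    simp only [smul_eq_mul] at h1
    nlinarith

theorem GG_le_log {τ : ℝ} (hτ : 0 < τ) {x : ℝ} (hx0 : 0 ≤ x) (hx : x ≤ 1 / 2) :
    GG τ x ≤ Real.log (x + τ) - Real.log (1 / 2) := by
  unfold GG
  have hi : ∀ a b, IntervalIntegrable (fun t => rho t * kk τ t) volume a b := fun a b =>
    (GG_cont hτ).intervalIntegrable _ _
  rw [intervalIntegral.integral_symm,
    ← intervalIntegral.integral_add_adjacent_intervals (hi x (1 / 2)) (hi (1 / 2) 1)]
  have h1 : 0 ≤ ∫ t in (1 / 2 : ℝ)..(1 : ℝ), rho t * kk τ t :=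
    intervalIntegral.integral_nonneg (by norm_num) fun t _ =>
      mul_nonneg (rho_nonneg t) (kk_pos hτ t).le
  have h2 : ∫ t in x..(1 / 2 : ℝ), (t + τ)⁻¹ ≤ ∫ t in x..(1 / 2 : ℝ), rho t * kk τ t := by
    refine intervalIntegral.integral_mono_on hx ?_ (hi _ _) fun t ht => ?_
    · refine ContinuousOn.intervalIntegrable ?_
      rw [Set.uIcc_of_le hx]
      refine ContinuousOn.inv₀ (by fun_prop) fun t ht => ?_
      have : 0 ≤ t := hx0.trans ht.1
      positivity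
    · rw [rho_eq_one ht.2, one_mul]
      exact kk_ge hτ (hx0.trans ht.1)
  have h3 : ∫ t in x..(1 / 2 : ℝ), (t + τ)⁻¹ = Real.log ((1 / 2 + τ) / (x + τ)) := by
    rw [intervalIntegral.integral_comp_add_right (fun t => t⁻¹)]
    rw [integral_inv]
    rw [Set.uIcc_of_le (by linarith)]
    intro h
    have := h.1
    linarith
  rw [h3, Real.log_div (by positivity) (by positivity)] at h2
  have h4 : Real.log (1 / 2) ≤ Real.log (1 / 2 + τ) :=
    Real.log_le_log (by norm_num) (by linarith)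
  linarith

theorem GG_deriv2 {τ : ℝ} (hτ : 0 < τ) (x : ℝ) :
    deriv (deriv (GG τ)) x = deriv rho x * kk τ x - rho x * (x * kk τ x ^ 3) := by
  rw [GG_deriv hτ]
  have h1 : DifferentiableAt ℝ rho x := rho_contDiff.differentiable (by simp) x
  have h2 := h1.hasDerivAt.mul (kk_hasDerivAt hτ x)
  have h3 : deriv (fun x => rho x * kk τ x) x = _ := h2.deriv
  rw [h3]
  ring

/-- The lower bound of the Levi form. -/
theorem GG_levi {τ : ℝ} (hτ : 0 < τ) {C0 : ℝ} (hC0 : ∀ x, |deriv rho x| ≤ C0) {x y b : ℝ}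
    (hx : 0 ≤ x) (hy : 0 ≤ y) (hb : 0 ≤ b) (hyx : y ≤ x * b) :
    (if x < 1 then -(C0 * b) else 0) ≤ deriv (GG τ) x * b + deriv (deriv (GG τ)) x * y := by
  have hC00 : 0 ≤ C0 := (abs_nonneg _).trans (hC0 0)
  have e1 : deriv (GG τ) x = rho x * kk τ x := congrFun (GG_deriv hτ) x
  rw [GG_deriv2 hτ, e1]
  split_ifs with h1
  · have hk := kk_pos hτ x
    have h2 : x ^ 2 * kk τ x ^ 2 ≤ 1 := by
      have := kk_mul_le hτ hx
      have h3 : 0 ≤ kk τ x * x := mul_nonneg hk.le hx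
      calc x ^ 2 * kk τ x ^ 2 = (kk τ x * x) ^ 2 := by ring
        _ ≤ 1 ^ 2 := pow_le_pow_left₀ h3 this 2
        _ = 1 := by norm_num
    have h3 : 0 ≤ rho x * (kk τ x * b - x * kk τ x ^ 3 * y) := by
      refine mul_nonneg (rho_nonneg x) ?_
      have h4 : x * kk τ x ^ 3 * y ≤ x * kk τ x ^ 3 * (x * b) := by gcongr
      have h5 : x * kk τ x ^ 3 * (x * b) = kk τ x * b * (x ^ 2 * kk τ x ^ 2) := by ring
      have h6 : kk τ x * b * (x ^ 2 * kk τ x ^ 2) ≤ kk τ x * b * 1 := by gcongr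
      linarith
    have h7 : -(C0 * b) ≤ deriv rho x * (kk τ x * y) := by
      have h8 : kk τ x * y ≤ b := by
        calc kk τ x * y ≤ kk τ x * (x * b) := by gcongr
          _ = (kk τ x * x) * b := by ring
          _ ≤ 1 * b := by gcongr; exact kk_mul_le hτ hx
          _ = b := one_mul b
      have h9 : 0 ≤ kk τ x * y := by positivity
      have h10 : |deriv rho x * (kk τ x * y)| ≤ C0 * b := by
        rw [abs_mul, abs_of_nonneg h9]
        exact mul_le_mul (hC0 x) h8 h9 hC00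
      exact (abs_le.1 h10).1
    linarith
  · rw [not_lt] at h1
    rw [rho_eq_zero h1, deriv_rho_zero h1]
    simp

end Vale.Agent.P299.H465
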