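import Vale.Agent.P300.H435.L2.Holo

/-!
P299, helper465: Hörmander's theorem on abstract étale covers (`P300.L2`), with the hypotheses
`weights bounded below` and `α polynomially bounded` replaced by the single hypothesis that
`‖α‖² exp(-Φ)` is integrable against some negative power of the exhaustion function.
-/

set_option linter.all false

open MeasureTheory Filter Topology
open scoped ENNReal NNReal ComplexConjugate
open Vale.Agent.P300.L2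

namespace Vale.Agent.P299.H465

open Vale.Agent.P300.L2.Sheets

variable {n N : ℕ} {S : Sheets n N}

/-- `‖α‖² exp(-Φ)` is integrable against some negative power of `1 + p`. -/
def Fin2 (S : Sheets n N) (p : (Fin n → ℂ) → ℝ) (Φ : (Fin n → ℂ) × ℕ → ℝ)
    (α : (Fin n → ℂ) × ℕ → ℂ) : Prop :=
  ∃ k : ℕ, ∫⁻ q, ENNReal.ofReal (‖α q‖ ^ 2 * Real.exp (-Φ q) * ((1 + p q.1) ^ k)⁻¹) ∂S.μ < ⊤

theorem alpha_finite' {p : (Fin n → ℂ) → ℝ} {C : ℝ} {k0 : ℕ} (hp : Exh S.V p C k0)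
    {Φ ψ χ : (Fin n → ℂ) × ℕ → ℝ} {α : (Fin n → ℂ) × ℕ → ℂ} (hfin : Fin2 S p Φ α)
    {c2 : ℝ} (hc2 : 0 < c2) (hχ : ∀ q, χ q = c2 * (1 + p q.1) ^ (k0 + 1))
    (hχψ : ∀ q ∈ S.M, 2 * ψ q ≤ χ q) :
    ∫⁻ q, ENNReal.ofReal (‖α q‖ ^ 2 * Real.exp (-(Φ q + χ q - ψ q))) ∂S.μ < ⊤ := by
  obtain ⟨k, hk⟩ := hfin
  obtain ⟨K, hK0, hK⟩ := exists_polyExp 0 k (c := c2 / 2) (by positivity)
  refine lt_of_le_of_lt (b := ENNReal.ofReal K *
    ∫⁻ q, ENNReal.ofReal (‖α q‖ ^ 2 * Real.exp (-Φ q) * ((1 + p q.1) ^ k)⁻¹) ∂S.μ) ?_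
    (ENNReal.mul_lt_top ENNReal.ofReal_lt_top hk)
  rw [← lintegral_const_mul' _ _ ENNReal.ofReal_ne_top]
  refine lintegral_mono_ae ?_
  filter_upwards [ae_mem_M (S := S)] with q hq
  rw [← ENNReal.ofReal_mul hK0]
  refine ENNReal.ofReal_le_ofReal ?_
  have hqV : q.1 ∈ S.V := hq.1
  have hp1 := hp.norm_sq_le q.1 hqV
  have hp0 : 0 ≤ p q.1 := le_trans (by positivity) hp1
  have h2 : c2 / 2 * (1 + p q.1) ≤ χ q - ψ q := by
    have h3 := hχψ q hq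
    have h4 : (1 + p q.1) ≤ (1 + p q.1) ^ (k0 + 1) := by
      have : (1 : ℝ) ≤ 1 + p q.1 := by linarith
      exact le_self_pow₀ this (by omega)
    have h5 : c2 * (1 + p q.1) ≤ χ q := by
      rw [hχ]
      gcongr
    linarith
  have h3 : Real.exp (-(Φ q + χ q - ψ q)) ≤
      Real.exp (-Φ q) * Real.exp (-(c2 / 2 * (1 + p q.1))) := by
    rw [← Real.exp_add]
    refine Real.exp_le_exp.2 ?_
    linarith
  have h4 := hK (p q.1) hp0
  rw [pow_zero, one_mul] at h4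
  calc ‖α q‖ ^ 2 * Real.exp (-(Φ q + χ q - ψ q))
      ≤ ‖α q‖ ^ 2 * (Real.exp (-Φ q) * Real.exp (-(c2 / 2 * (1 + p q.1)))) := by gcongr
    _ ≤ ‖α q‖ ^ 2 * (Real.exp (-Φ q) * (K * ((1 + p q.1) ^ k)⁻¹)) := by gcongr
    _ = K * (‖α q‖ ^ 2 * Real.exp (-Φ q) * ((1 + p q.1) ^ k)⁻¹) := by ring

/-- Polynomially bounded functions, weights with polynomially bounded `exp (-Φ)`. -/
theorem Fin2.of_poly {p : (Fin n → ℂ) → ℝ} {C : ℝ} {k0 : ℕ} (hp : Exh S.V p C k0)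
    {Φ : (Fin n → ℂ) × ℕ → ℝ} {α : (Fin n → ℂ) × ℕ → ℂ}
    (hΦ : ∃ (c : ℝ) (k : ℕ), ∀ q ∈ S.M, Real.exp (-Φ q) ≤ c * (1 + p q.1) ^ k)
    (hα : ∃ (c : ℝ) (k : ℕ), ∀ q ∈ S.M, ‖α q‖ ≤ c * (1 + p q.1) ^ k) : Fin2 S p Φ α := by
  obtain ⟨c, k, hc⟩ := hΦ
  obtain ⟨c', k', hc'⟩ := hα
  refine ⟨2 * k' + k + (n + 1), lt_of_le_of_lt (lintegral_mono_ae ?_)
    (lintegral_decay (S := S) (c' ^ 2 * |c| * 2 ^ (n + 1)))⟩
  filter_upwards [ae_mem_M (S := S)] with q hq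
  refine ENNReal.ofReal_le_ofReal ?_
  have hp1 := hp.norm_sq_le q.1 hq.1
  have hp0 : 0 ≤ p q.1 := le_trans (by positivity) hp1
  have h1 : ‖α q‖ ^ 2 ≤ c' ^ 2 * (1 + p q.1) ^ (2 * k') := by
    calc ‖α q‖ ^ 2 ≤ (c' * (1 + p q.1) ^ k') ^ 2 :=
          pow_le_pow_left₀ (norm_nonneg _) (hc' q hq) 2
      _ = c' ^ 2 * (1 + p q.1) ^ (2 * k') := by ring
  have h2 : Real.exp (-Φ q) ≤ |c| * (1 + p q.1) ^ k := (hc q hq).trans (by
    gcongr
    exact le_abs_self c)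
  have h5 : ((1 + p q.1) ^ (n + 1))⁻¹ ≤ 2 ^ (n + 1) * ((1 + ‖q.1‖) ^ (2 * (n + 1)))⁻¹ := by
    rw [← div_eq_mul_inv, inv_eq_one_div, div_le_div_iff₀ (by positivity) (by positivity), one_mul,
      pow_mul, ← mul_pow]
    refine pow_le_pow_left₀ (by positivity) ?_ _
    linarith only [sq_nonneg (1 - ‖q.1‖), hp1]
  calc ‖α q‖ ^ 2 * Real.exp (-Φ q) * ((1 + p q.1) ^ (2 * k' + k + (n + 1)))⁻¹
      ≤ (c' ^ 2 * (1 + p q.1) ^ (2 * k')) * (|c| * (1 + p q.1) ^ k) *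
          ((1 + p q.1) ^ (2 * k' + k + (n + 1)))⁻¹ := by gcongr
    _ = c' ^ 2 * |c| * ((1 + p q.1) ^ (n + 1))⁻¹ := by
        rw [pow_add, pow_add]
        field_simp
    _ ≤ c' ^ 2 * |c| * (2 ^ (n + 1) * ((1 + ‖q.1‖) ^ (2 * (n + 1)))⁻¹) := by gcongr
    _ = c' ^ 2 * |c| * 2 ^ (n + 1) * ((1 + ‖q.1‖) ^ (2 * (n + 1)))⁻¹ := by ring

theorem main_est {p : (Fin n → ℂ) → ℝ} {C : ℝ} {k0 : ℕ} (hp : Exh S.V p C k0)
    {Φ : (Fin n → ℂ) × ℕ → ℝ} (hΦ : S.CD 2 (fun q => (Φ q : ℂ)))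
    (hlevi : ∀ q ∈ S.M, ∀ β : Fin n → ℂ, 0 ≤ S.levi Φ β q)
    (α : Fin n → (Fin n → ℂ) × ℕ → ℂ) (hα : ∀ j, S.CD 1 (α j))
    (hcl : ∀ q ∈ S.M, ∀ j k, S.Db j (α k) q = S.Db k (α j) q)
    (hαb : ∀ j, Fin2 S p Φ (α j))
    (a : (Fin n → ℂ) × ℕ → ℝ) (ha : ∀ q, 0 ≤ a q) (ham : AEMeasurable a S.μ)
    (hab : ∀ q ∈ S.M, ∀ β : Fin n → ℂ, ‖∑ j, α j q * conj (β j)‖ ^ 2 ≤ a q * S.levi Φ β q)
    {A : ℝ} (hA0 : 0 ≤ A)
    (hA : ∫⁻ q, ENNReal.ofReal (a q * Real.exp (-Φ q)) ∂S.μ ≤ ENNReal.ofReal A)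
    (γ : Fin n → (Fin n → ℂ) × ℕ → ℂ) (hγ : ∀ j, S.IsTest (γ j)) :
    ‖∫ q, ∑ j, α j q * conj (γ j q) ∂S.μ‖ ^ 2 ≤
      2 * A * ∫ q, ‖S.dvH γ q‖ ^ 2 * Real.exp (Φ q) ∂S.μ := by
  obtain ⟨k1, C2, hC2, hw⟩ := exists_weights hp
  set τ : ℕ → ℝ := fun m => 1 / ((m : ℝ) + 1) with hτdef
  have hτ0 : ∀ m, 0 < τ m := fun m => by positivity
  have hτ1 : ∀ m, τ m ≤ 1 := fun m => by
    rw [hτdef]
    simp only
    rw [div_le_one (by positivity)]
    have : (0 : ℝ) ≤ m := m.cast_nonneg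
    linarith
  have hτlim : Tendsto τ atTop (𝓝 0) := tendsto_one_div_add_atTop_nhds_zero_nat
  have key : ∀ m, ‖∫ q, ∑ j, α j q * conj (γ j q) ∂S.μ‖ ^ 2 ≤
      2 * A * ∫ q, ‖S.dvH γ q‖ ^ 2 * Real.exp (Φ q + C2 * τ m * (1 + p q.1) ^ (k0 + 1) -
        2 * (k1 * Real.log (1 + τ m * p q.1))) ∂S.μ := by
    intro m
    obtain ⟨h1, h2, h3⟩ := hw (τ m) (hτ0 m) (hτ1 m)
    refine twisted_estimate (ψ := fun q => k1 * Real.log (1 + τ m * p q.1))
      (χ := fun q => C2 * τ m * (1 + p q.1) ^ (k0 + 1)) hΦ (ψH_CD hp k1 (hτ0 m)) (χH_CD hp _) h2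
      (fun q hq => h1 q.1 hq.1) hlevi h3 α hα hcl (fun j => ?_) a ha ham hab hA0 hA γ hγ
    exact alpha_finite' hp (hαb j) (c2 := C2 * τ m)
      (mul_pos hC2 (hτ0 m)) (fun q => rfl) (fun q hq => h1 q.1 hq.1)
  have lim : Tendsto (fun m => ∫ q, ‖S.dvH γ q‖ ^ 2 *
      Real.exp (Φ q + C2 * τ m * (1 + p q.1) ^ (k0 + 1) -
        2 * (k1 * Real.log (1 + τ m * p q.1))) ∂S.μ) atTop
      (𝓝 (∫ q, ‖S.dvH γ q‖ ^ 2 * Real.exp (Φ q) ∂S.μ)) := by
    refine tendsto_integral_of_dominated_convergence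
      (fun q => ‖S.dvH γ q‖ ^ 2 * Real.exp (Φ q + C2 * (1 + p q.1) ^ (k0 + 1))) (fun m => ?_) ?_
      (fun m => ?_) ?_
    · refine (integrable_expH ?_ hγ).aestronglyMeasurable
      have h1 := (hΦ.add (χH_CD hp (C2 * τ m))).add
        ((CD.const (-2 : ℂ)).mul (ψH_CD hp k1 (hτ0 m)))
      refine h1.congr fun q _ => ?_
      push_cast
      ring
    · refine integrable_expH ?_ hγ
      refine (hΦ.add (χH_CD hp C2)).congr fun q _ => ?_
      push_cast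
      ring
    · filter_upwards [ae_mem_M (S := S)] with q hq
      have hp0 : 0 ≤ p q.1 := le_trans (by positivity) (hp.norm_sq_le q.1 hq.1)
      rw [Real.norm_of_nonneg (by positivity)]
      have hlog : 0 ≤ Real.log (1 + τ m * p q.1) := by
        refine Real.log_nonneg ?_
        have := mul_nonneg (hτ0 m).le hp0
        linarith
      have h4 : C2 * τ m * (1 + p q.1) ^ (k0 + 1) ≤ C2 * (1 + p q.1) ^ (k0 + 1) := by
        have : C2 * τ m ≤ C2 * 1 := by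
          gcongr
          exact hτ1 m
        rw [mul_one] at this
        gcongr
      gcongr
      have h5 : (0 : ℝ) ≤ k1 * Real.log (1 + τ m * p q.1) := by positivity
      linarith
    · filter_upwards [ae_mem_M (S := S)] with q hq
      refine Tendsto.const_mul _ ((Real.continuous_exp.tendsto _).comp ?_)
      have h6 : Tendsto (fun m => Φ q + C2 * τ m * (1 + p q.1) ^ (k0 + 1) -
          2 * (k1 * Real.log (1 + τ m * p q.1))) atTop
          (𝓝 (Φ q + C2 * 0 * (1 + p q.1) ^ (k0 + 1) - 2 * (k1 * Real.log (1 + 0 * p q.1)))) := by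
        refine Tendsto.sub (Tendsto.const_add _ ((hτlim.const_mul _).mul_const _)) ?_
        refine Tendsto.const_mul _ (Tendsto.const_mul _ ?_)
        refine Tendsto.log ((hτlim.mul_const _).const_add _) ?_
        norm_num
      simpa using h6
  exact ge_of_tendsto' (lim.const_mul _) key

/-- Hörmander's theorem on `M`. -/
theorem hormander {p : (Fin n → ℂ) → ℝ} {C : ℝ} {k0 : ℕ} (hp : Exh S.V p C k0)
    {Φ : (Fin n → ℂ) × ℕ → ℝ} (hΦ : S.CD 2 (fun q => (Φ q : ℂ)))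
    (hlevi : ∀ q ∈ S.M, ∀ β : Fin n → ℂ, 0 ≤ S.levi Φ β q)
    (α : Fin n → (Fin n → ℂ) × ℕ → ℂ) (hα : ∀ j, S.CD 1 (α j))
    (hcl : ∀ q ∈ S.M, ∀ j k, S.Db j (α k) q = S.Db k (α j) q)
    (hαb : ∀ j, Fin2 S p Φ (α j))
    (a : (Fin n → ℂ) × ℕ → ℝ) (ha : ∀ q, 0 ≤ a q) (ham : AEMeasurable a S.μ)
    (hab : ∀ q ∈ S.M, ∀ β : Fin n → ℂ, ‖∑ j, α j q * conj (β j)‖ ^ 2 ≤ a q * S.levi Φ β q)
    {A : ℝ} (hA0 : 0 ≤ A)
    (hA : ∫⁻ q, ENNReal.ofReal (a q * Real.exp (-Φ q)) ∂S.μ ≤ ENNReal.ofReal A) :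
    ∃ u : (Fin n → ℂ) × ℕ → ℂ, AEStronglyMeasurable u S.μ ∧
      ∫⁻ q, ENNReal.ofReal (‖u q‖ ^ 2 * Real.exp (-Φ q)) ∂S.μ ≤ ENNReal.ofReal (2 * A) ∧
      ∀ κ, S.IsTest κ → ∀ j, ∫ q, u q * S.Db j κ q ∂S.μ = - ∫ q, α j q * κ q ∂S.μ := by
  obtain ⟨U, hU, hUl⟩ := exists_riesz (LH hΦ) (lH hα) (C := 2 * A) (by positivity) (by
    intro γ
    rw [lH_eq, RCLike.norm_conj, norm_sq_LH]
    exact main_est hp hΦ hlevi α hα hcl hαb a ha ham hab hA0 hA γ γ.2)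
  have hexp : AEStronglyMeasurable (fun q => ((Real.exp (1 / 2 * Φ q) : ℝ) : ℂ)) S.μ :=
    aestronglyMeasurable_of_CD (expH_CD hΦ _)
  refine ⟨fun q => -(U q * ((Real.exp (1 / 2 * Φ q) : ℝ) : ℂ)),
    ((Lp.aestronglyMeasurable U).mul hexp).neg, ?_, fun κ hκ j => ?_⟩
  · have h1 : ∀ q, ‖-(U q * ((Real.exp (1 / 2 * Φ q) : ℝ) : ℂ))‖ ^ 2 * Real.exp (-Φ q) =
        ‖U q‖ ^ 2 := by
      intro q
      rw [norm_neg, norm_mul, Complex.norm_real, Real.norm_eq_abs, abs_of_pos (Real.exp_pos _),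
        mul_pow, ← Real.exp_nat_mul, mul_assoc, ← Real.exp_add]
      have : ((2 : ℕ) : ℝ) * (1 / 2 * Φ q) + -Φ q = 0 := by
        push_cast
        ring
      rw [this, Real.exp_zero, mul_one]
    simp_rw [h1]
    have hI : Integrable (fun q => ‖U q‖ ^ 2) S.μ :=
      (memLp_two_iff_integrable_sq_norm (Lp.aestronglyMeasurable U)).1 (Lp.memLp U)
    rw [← ofReal_integral_eq_lintegral_ofReal hI (Eventually.of_forall fun q => by positivity),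
      ← norm_sq_Lp]
    exact ENNReal.ofReal_le_ofReal hU
  · set γ : Fin n → (Fin n → ℂ) × ℕ → ℂ := fun i => if i = j then (fun q => conj (κ q)) else
      (fun _ => 0) with hγdef
    have hγ : ∀ i, S.IsTest (γ i) := by
      intro i
      by_cases h : i = j
      · simp only [hγdef, h, if_true]
        exact hκ.conjH
      · simp only [hγdef, h, if_false]
        exact IsTest.zeroH
    have hγj : γ j = fun q => conj (κ q) := by simp [hγdef]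
    have h1 := hUl ⟨γ, hγ⟩
    rw [lH_eq, L2.inner_def] at h1
    have h2 : ∀ q, ∑ i, α i q * conj (γ i q) = α j q * κ q := by
      intro q
      rw [Finset.sum_eq_single j]
      · rw [hγj, Complex.conj_conj]
      · intro i _ hij
        simp [hγdef, hij]
      · simp
    have h3 : ∀ q, S.dvH γ q = conj (S.Db j κ q) := by
      intro q
      rw [dvH, Finset.sum_eq_single j]
      · rw [hγj, D_conj]
      · intro i _ hij
        have : γ i = fun _ => 0 := by simp [hγdef, hij]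
        rw [this]
        exact dz_const 0
      · simp
    have h4 : (∫ q, inner ℂ (U q) ((LH hΦ ⟨γ, hγ⟩ : Lp ℂ 2 S.μ) q) ∂S.μ : ℂ) =
        conj (∫ q, U q * ((Real.exp (1 / 2 * Φ q) : ℝ) : ℂ) * S.Db j κ q ∂S.μ) := by
      rw [← integral_conj]
      refine integral_congr_ae ?_
      filter_upwards [coe_LH hΦ ⟨γ, hγ⟩] with q hq
      rw [hq, RCLike.inner_apply', h3, map_mul, map_mul, Complex.conj_ofReal]
      ring
    rw [h4] at h1
    have h5 := congrArg (starRingEnd ℂ) h1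
    rw [Complex.conj_conj, Complex.conj_conj] at h5
    simp only [h2] at h5
    rw [h5, ← integral_neg]
    congr 1
    funext q
    ring


/-- Hoermander's theorem, decreasing sequences of weights. -/
theorem hormander_sing {p : (Fin n → ℂ) → ℝ} {C : ℝ} {k0 : ℕ} (hp : Exh S.V p C k0)
    {Φ : ℕ → (Fin n → ℂ) × ℕ → ℝ} (hΦ : ∀ m, S.CD 2 (fun q => (Φ m q : ℂ)))
    (hanti : ∀ m, ∀ q ∈ S.M, Φ (m + 1) q ≤ Φ m q)
    (hlevi : ∀ m, ∀ q ∈ S.M, ∀ β : Fin n → ℂ, 0 ≤ S.levi (Φ m) β q)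
    (α : Fin n → (Fin n → ℂ) × ℕ → ℂ) (hα : ∀ j, S.CD 1 (α j))
    (hcl : ∀ q ∈ S.M, ∀ j k, S.Db j (α k) q = S.Db k (α j) q)
    (hαb : ∀ m j, Fin2 S p (Φ m) (α j))
    (a : ℕ → (Fin n → ℂ) × ℕ → ℝ) (ha : ∀ m q, 0 ≤ a m q) (ham : ∀ m, AEMeasurable (a m) S.μ)
    (hab : ∀ m, ∀ q ∈ S.M, ∀ β : Fin n → ℂ,
      ‖∑ j, α j q * conj (β j)‖ ^ 2 ≤ a m q * S.levi (Φ m) β q)
    {A : ℝ} (hA0 : 0 ≤ A)
    (hA : ∀ m, ∫⁻ q, ENNReal.ofReal (a m q * Real.exp (-Φ m q)) ∂S.μ ≤ ENNReal.ofReal A) :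
    ∃ u : (Fin n → ℂ) × ℕ → ℂ, AEStronglyMeasurable u S.μ ∧
      (∀ m, ∫⁻ q, ENNReal.ofReal (‖u q‖ ^ 2 * Real.exp (-Φ m q)) ∂S.μ ≤ ENNReal.ofReal (2 * A)) ∧
      ∀ κ, S.IsTest κ → ∀ j, ∫ q, u q * S.Db j κ q ∂S.μ = - ∫ q, α j q * κ q ∂S.μ := by
  have hmeas := limE_meas hΦ hanti
  -- the operator
  have hmem : ∀ γ : TT S, MemLp (fun q => ((Real.sqrt (limE Φ q) : ℝ) : ℂ) *
      S.dvH (γ : Fin n → (Fin n → ℂ) × ℕ → ℂ) q) 2 S.μ := by
    intro γ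
    refine (memLpH (divH_CD (hΦ 0) γ.2) (divH_supp γ.2)).of_le
      (hmeas.mul (aestronglyMeasurable_of_CD (dvH_CD γ.2))) ?_
    filter_upwards with q
    rw [norm_mul, norm_mul, Complex.norm_real, Complex.norm_real, Real.norm_eq_abs,
      Real.norm_eq_abs, abs_of_nonneg (Real.sqrt_nonneg _), abs_of_pos (Real.exp_pos _)]
    refine mul_le_mul_of_nonneg_right ?_ (norm_nonneg _)
    calc Real.sqrt (limE Φ q) ≤ Real.sqrt (Real.exp (Φ 0 q)) := Real.sqrt_le_sqrt (limE_le Φ 0 q)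
      _ = Real.exp (1 / 2 * Φ 0 q) := by
          rw [← Real.exp_half]
          congr 1
          ring
  let L : TT S →ₗ[ℂ] Lp ℂ 2 S.μ :=
    { toFun := fun γ => (hmem γ).toLp _
      map_add' := by
        intro γ γ'
        rw [← MemLp.toLp_add]
        refine MemLp.toLp_congr _ _ ?_
        filter_upwards [ae_mem_M (S := S)] with q hq
        simp only [Pi.add_apply]
        rw [Submodule.coe_add, dvH_add γ.2 γ'.2 hq, mul_add]
      map_smul' := by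
        intro c γ
        rw [RingHom.id_apply, ← MemLp.toLp_const_smul]
        refine MemLp.toLp_congr _ _ ?_
        filter_upwards [ae_mem_M (S := S)] with q hq
        simp only [Pi.smul_apply, smul_eq_mul]
        rw [Submodule.coe_smul, dvH_smul γ.2 c hq]
        ring }
  have hL : ∀ γ : TT S, L γ =ᵐ[S.μ] fun q => ((Real.sqrt (limE Φ q) : ℝ) : ℂ) *
      S.dvH (γ : Fin n → (Fin n → ℂ) × ℕ → ℂ) q := fun γ => MemLp.coeFn_toLp (hmem γ)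
  have hLn : ∀ γ : TT S, ‖L γ‖ ^ 2 =
      ∫ q, ‖S.dvH (γ : Fin n → (Fin n → ℂ) × ℕ → ℂ) q‖ ^ 2 * limE Φ q ∂S.μ := by
    intro γ
    rw [norm_sq_Lp]
    refine integral_congr_ae ?_
    filter_upwards [hL γ] with q hq
    rw [hq, norm_mul, Complex.norm_real, Real.norm_eq_abs, abs_of_nonneg (Real.sqrt_nonneg _),
      mul_pow, Real.sq_sqrt (limE_nonneg _ _), mul_comm]
  -- the estimate
  have hest : ∀ γ : TT S, ‖lH hα γ‖ ^ 2 ≤ 2 * A * ‖L γ‖ ^ 2 := by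
    intro γ
    rw [hLn, lH_eq, RCLike.norm_conj]
    have h1 : ∀ m, _ := fun m => main_est hp (hΦ m) (hlevi m) α hα hcl (hαb m) (a m) (ha m)
      (ham m) (hab m) hA0 (hA m) γ γ.2
    have h2 : Tendsto (fun m => ∫ q, ‖S.dvH (γ : Fin n → (Fin n → ℂ) × ℕ → ℂ) q‖ ^ 2 *
        Real.exp (Φ m q) ∂S.μ) atTop
        (𝓝 (∫ q, ‖S.dvH (γ : Fin n → (Fin n → ℂ) × ℕ → ℂ) q‖ ^ 2 * limE Φ q ∂S.μ)) := by
      refine tendsto_integral_of_dominated_convergence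
        (fun q => ‖S.dvH (γ : Fin n → (Fin n → ℂ) × ℕ → ℂ) q‖ ^ 2 * Real.exp (Φ 0 q))
        (fun m => (integrable_expH (hΦ m) γ.2).aestronglyMeasurable)
        (integrable_expH (hΦ 0) γ.2) (fun m => ?_) ?_
      · filter_upwards [ae_mem_M (S := S)] with q hq
        rw [Real.norm_of_nonneg (by positivity)]
        have h3 : Φ m q ≤ Φ 0 q :=
          antitone_nat_of_succ_le (f := fun m => Φ m q) (fun m => hanti m q hq) (Nat.zero_le m)
        exact mul_le_mul_of_nonneg_left (Real.exp_le_exp.2 h3) (by positivity)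
      · filter_upwards [ae_mem_M (S := S)] with q hq
        exact (limE_tendsto fun m => hanti m q hq).const_mul _
    exact ge_of_tendsto' (h2.const_mul _) h1
  obtain ⟨U, hU, hUl⟩ := exists_riesz L (lH hα) (C := 2 * A) (by positivity) hest
  refine ⟨fun q => -(U q * ((Real.sqrt (limE Φ q) : ℝ) : ℂ)),
    ((Lp.aestronglyMeasurable U).mul hmeas).neg, ?_, fun κ hκ j => ?_⟩
  · intro m
    have hI : Integrable (fun q => ‖U q‖ ^ 2) S.μ :=
      (memLp_two_iff_integrable_sq_norm (Lp.aestronglyMeasurable U)).1 (Lp.memLp U)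
    calc ∫⁻ q, ENNReal.ofReal (‖-(U q * ((Real.sqrt (limE Φ q) : ℝ) : ℂ))‖ ^ 2 *
          Real.exp (-Φ m q)) ∂S.μ ≤ ∫⁻ q, ENNReal.ofReal (‖U q‖ ^ 2) ∂S.μ := by
          refine lintegral_mono fun q => ENNReal.ofReal_le_ofReal ?_
          rw [norm_neg, norm_mul, Complex.norm_real, Real.norm_eq_abs,
            abs_of_nonneg (Real.sqrt_nonneg _), mul_pow, Real.sq_sqrt (limE_nonneg _ _)]
          calc ‖U q‖ ^ 2 * limE Φ q * Real.exp (-Φ m q)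
              ≤ ‖U q‖ ^ 2 * Real.exp (Φ m q) * Real.exp (-Φ m q) := by
                gcongr
                exact limE_le Φ m q
            _ = ‖U q‖ ^ 2 := by
                rw [mul_assoc, ← Real.exp_add]
                simp
      _ ≤ ENNReal.ofReal (2 * A) := by
          rw [← ofReal_integral_eq_lintegral_ofReal hI (Eventually.of_forall fun q => by positivity),
            ← norm_sq_Lp]
          exact ENNReal.ofReal_le_ofReal hU
  · set γ : Fin n → (Fin n → ℂ) × ℕ → ℂ := fun i => if i = j then (fun q => conj (κ q)) else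
      (fun _ => 0) with hγdef
    have hγ : ∀ i, S.IsTest (γ i) := by
      intro i
      by_cases h : i = j
      · simp only [hγdef, h, if_true]
        exact hκ.conjH
      · simp only [hγdef, h, if_false]
        exact IsTest.zeroH
    have hγj : γ j = fun q => conj (κ q) := by simp [hγdef]
    have h1 := hUl ⟨γ, hγ⟩
    rw [lH_eq, L2.inner_def] at h1
    have h2 : ∀ q, ∑ i, α i q * conj (γ i q) = α j q * κ q := by
      intro q
      rw [Finset.sum_eq_single j]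
      · rw [hγj, Complex.conj_conj]
      · intro i _ hij
        simp [hγdef, hij]
      · simp
    have h3 : ∀ q, S.dvH γ q = conj (S.Db j κ q) := by
      intro q
      rw [dvH, Finset.sum_eq_single j]
      · rw [hγj, D_conj]
      · intro i _ hij
        have : γ i = fun _ => 0 := by simp [hγdef, hij]
        rw [this]
        exact dz_const 0
      · simp
    have h4 : (∫ q, inner ℂ (U q) ((L ⟨γ, hγ⟩ : Lp ℂ 2 S.μ) q) ∂S.μ : ℂ) =
        conj (∫ q, U q * ((Real.sqrt (limE Φ q) : ℝ) : ℂ) * S.Db j κ q ∂S.μ) := by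
      rw [← integral_conj]
      refine integral_congr_ae ?_
      filter_upwards [hL ⟨γ, hγ⟩] with q hq
      rw [hq, RCLike.inner_apply', h3, map_mul, map_mul, Complex.conj_ofReal]
      ring
    rw [h4] at h1
    have h5 := congrArg (starRingEnd ℂ) h1
    rw [Complex.conj_conj, Complex.conj_conj] at h5
    simp only [h2] at h5
    rw [h5, ← integral_neg]
    congr 1
    funext q
    ring


/-- Hörmander + Weyl with decreasing weights: holomorphic functions close to a given smooth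
function. -/
theorem holo_sing {p : (Fin n → ℂ) → ℝ} {C : ℝ} {k0 : ℕ} (hp : Exh S.V p C k0)
    {Φ : ℕ → (Fin n → ℂ) × ℕ → ℝ} (hΦ : ∀ m, S.CD 2 (fun q => (Φ m q : ℂ)))
    (hanti : ∀ m, ∀ q ∈ S.M, Φ (m + 1) q ≤ Φ m q)
    (hlevi : ∀ m, ∀ q ∈ S.M, ∀ β : Fin n → ℂ, 0 ≤ S.levi (Φ m) β q)
    {s : (Fin n → ℂ) × ℕ → ℂ} (hs : S.CD 2 s)
    (hsb : ∀ m j, Fin2 S p (Φ m) (S.Db j s))
    (a : ℕ → (Fin n → ℂ) × ℕ → ℝ) (ha : ∀ m q, 0 ≤ a m q) (ham : ∀ m, AEMeasurable (a m) S.μ)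
    (hab : ∀ m, ∀ q ∈ S.M, ∀ β : Fin n → ℂ,
      ‖∑ j, S.Db j s q * conj (β j)‖ ^ 2 ≤ a m q * S.levi (Φ m) β q)
    {A : ℝ} (hA0 : 0 ≤ A)
    (hA : ∀ m, ∫⁻ q, ENNReal.ofReal (a m q * Real.exp (-Φ m q)) ∂S.μ ≤ ENNReal.ofReal A) :
    ∃ F : (Fin n → ℂ) × ℕ → ℂ, S.Holo F ∧
      ∀ m, ∫⁻ q, ENNReal.ofReal (‖F q - s q‖ ^ 2 * Real.exp (-Φ m q)) ∂S.μ ≤
        ENNReal.ofReal (2 * A) := by
  obtain ⟨u, hu1, hu2, hu3⟩ := hormander_sing hp hΦ hanti hlevi (fun j => S.Db j s)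
    (fun j => CD.Db (m := 1) hs) (fun q hq j k => Db_Db_comm hs hq) hsb a ha ham hab hA0 hA
  have hloc : ∀ K : Set (Fin n → ℂ), IsCompact K → K ⊆ S.V →
      ∫⁻ q in {q : (Fin n → ℂ) × ℕ | q.1 ∈ K}, ‖u q‖ₑ ^ 2 ∂S.μ < ⊤ := by
    intro K hK hKV
    obtain ⟨B, hB⟩ := exists_bound ((hΦ 0).mono (Nat.zero_le 2)) hK hKV
    have h1 : ∫⁻ q in {q : (Fin n → ℂ) × ℕ | q.1 ∈ K}, ‖u q‖ₑ ^ 2 ∂S.μ ≤
        ∫⁻ q in {q : (Fin n → ℂ) × ℕ | q.1 ∈ K}, ENNReal.ofReal (Real.exp B) *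
          ENNReal.ofReal (‖u q‖ ^ 2 * Real.exp (-Φ 0 q)) ∂S.μ := by
      refine lintegral_mono_ae ?_
      filter_upwards [ae_restrict_of_ae (ae_mem_M (S := S)),
        ae_restrict_mem (hdc_meas_fst hK)] with q hq1 hq2
      have h3 := hB q hq1 hq2
      rw [Complex.norm_real, Real.norm_eq_abs] at h3
      have h4 : Φ 0 q ≤ B := (le_abs_self _).trans h3
      rw [← ENNReal.ofReal_mul (Real.exp_pos _).le, ← ofReal_norm,
        ← ENNReal.ofReal_pow (norm_nonneg _)]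
      refine ENNReal.ofReal_le_ofReal ?_
      have h5 : 1 ≤ Real.exp B * Real.exp (-Φ 0 q) := by
        rw [← Real.exp_add]
        exact Real.one_le_exp (by linarith)
      nlinarith [sq_nonneg ‖u q‖]
    refine h1.trans_lt ?_
    rw [lintegral_const_mul' _ _ ENNReal.ofReal_ne_top]
    refine ENNReal.mul_lt_top ENNReal.ofReal_lt_top ?_
    exact (setLIntegral_le_lintegral _ _).trans_lt ((hu2 0).trans_lt ENNReal.ofReal_lt_top)
  obtain ⟨F, hF, hFe⟩ := weylM_sub (hs.mono one_le_two) hu1 hloc hu3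
  refine ⟨F, hF, fun m => ?_⟩
  refine le_trans (le_of_eq ?_) (hu2 m)
  refine lintegral_congr_ae ?_
  filter_upwards [hFe] with q hq
  have h1 : F q - s q = - u q := by
    rw [← hq]
    ring
  rw [h1, norm_neg]


end Vale.Agent.P299.H465
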