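import Vale.Agent.P299.H465.Shf
import Vale.Agent.P299.H465.Cut

/-!
P299, helper465: weights with approximate isolated poles on one sheet: Levi form. The poles are
measured by a quadratic form `|B (z - a)|²`.
-/

set_option linter.all false

open MeasureTheory Filter Topology
open scoped ENNReal NNReal ComplexConjugate
open Vale.Agent.P300.L2

namespace Vale.Agent.P299.H465

open Vale.Agent.P300.L2.Sheets

variable {n N : ℕ} {S : Sheets n N}

/-- Square of the Euclidean norm. -/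
noncomputable def nsq (z : Fin n → ℂ) : ℝ := ∑ j, ‖z j‖ ^ 2

theorem nsq_nonneg (z : Fin n → ℂ) : 0 ≤ nsq z := Finset.sum_nonneg fun _ _ => by positivity

theorem nsq_le (z : Fin n → ℂ) : nsq z ≤ n * ‖z‖ ^ 2 := by
  calc nsq z ≤ ∑ j : Fin n, ‖z‖ ^ 2 := Finset.sum_le_sum fun j _ =>
        pow_le_pow_left₀ (norm_nonneg _) (norm_le_pi_norm z j) 2
    _ = n * ‖z‖ ^ 2 := by simp

theorem le_nsq (z : Fin n → ℂ) (j : Fin n) : ‖z j‖ ^ 2 ≤ nsq z :=
  Finset.single_le_sum (f := fun j => ‖z j‖ ^ 2) (fun _ _ => by positivity) (Finset.mem_univ j)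

theorem norm_sq_le_nsq (z : Fin n → ℂ) : ‖z‖ ^ 2 ≤ nsq z := by
  have h1 : ‖z‖ ≤ Real.sqrt (nsq z) := by
    refine (pi_norm_le_iff_of_nonneg (Real.sqrt_nonneg _)).2 fun j => ?_
    exact Real.le_sqrt_of_sq_le (le_nsq z j)
  calc ‖z‖ ^ 2 ≤ (Real.sqrt (nsq z)) ^ 2 := pow_le_pow_left₀ (norm_nonneg _) h1 2
    _ = nsq z := Real.sq_sqrt (nsq_nonneg z)

theorem nsq_eq_zero {z : Fin n → ℂ} (h : nsq z = 0) : z = 0 := by
  have h1 := norm_sq_le_nsq z
  rw [h] at h1
  exact norm_eq_zero.1 (pow_eq_zero_iff two_ne_zero |>.1 (le_antisymm h1 (by positivity)))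

theorem nsq_contDiff : ContDiff ℝ (⊤ : ℕ∞) (nsq (n := n)) := by
  unfold nsq
  refine ContDiff.sum fun j _ => ?_
  refine (contDiff_norm_sq ℝ).comp ?_
  fun_prop

theorem nsq_continuous : Continuous (nsq (n := n)) := nsq_contDiff.continuous

/-- `|B (z - a)|²`. -/
noncomputable def qd (B : Matrix (Fin n) (Fin n) ℂ) (a z : Fin n → ℂ) : ℝ :=
  nsq (B.mulVec (z - a))

theorem qd_nonneg (B : Matrix (Fin n) (Fin n) ℂ) (a z : Fin n → ℂ) : 0 ≤ qd B a z := nsq_nonneg _

theorem qd_self (B : Matrix (Fin n) (Fin n) ℂ) (a : Fin n → ℂ) : qd B a a = 0 := by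
  simp [qd, nsq]

theorem mv_contDiff (B : Matrix (Fin n) (Fin n) ℂ) (a : Fin n → ℂ) {k : WithTop ℕ∞} :
    ContDiff ℝ k (fun z => B.mulVec (z - a)) := by
  have h1 : ContDiff ℝ k (fun z : Fin n → ℂ => (Matrix.mulVecLin B).toContinuousLinearMap z) :=
    ((Matrix.mulVecLin B).toContinuousLinearMap.restrictScalars ℝ).contDiff
  exact h1.comp (contDiff_id.sub contDiff_const)

theorem qd_contDiff (B : Matrix (Fin n) (Fin n) ℂ) (a : Fin n → ℂ) :
    ContDiff ℝ (⊤ : ℕ∞) (qd B a) := nsq_contDiff.comp (mv_contDiff B a)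

theorem qd_continuous (B : Matrix (Fin n) (Fin n) ℂ) (a : Fin n → ℂ) : Continuous (qd B a) :=
  (qd_contDiff B a).continuous

theorem mv_diff (B : Matrix (Fin n) (Fin n) ℂ) (a : Fin n → ℂ) (i : Fin n) (z : Fin n → ℂ) :
    HasFDerivAt (fun z => B.mulVec (z - a) i)
      ((ContinuousLinearMap.proj (R := ℂ) (φ := fun _ : Fin n => ℂ) i).comp
        (Matrix.mulVecLin B).toContinuousLinearMap) z := by
  have h1 : HasFDerivAt (fun z : Fin n → ℂ => (Matrix.mulVecLin B).toContinuousLinearMap (z - a))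
      (Matrix.mulVecLin B).toContinuousLinearMap z :=
    (Matrix.mulVecLin B).toContinuousLinearMap.hasFDerivAt.comp z ((hasFDerivAt_id z).sub_const a)
  exact (ContinuousLinearMap.proj (R := ℂ) (φ := fun _ : Fin n => ℂ) i).hasFDerivAt.comp z h1

theorem mv_diffR (B : Matrix (Fin n) (Fin n) ℂ) (a : Fin n → ℂ) (i : Fin n) (z : Fin n → ℂ) :
    DifferentiableAt ℝ (fun z => B.mulVec (z - a) i) z :=
  ((mv_diff B a i z).restrictScalars ℝ).differentiableAt

theorem mv_conj_diffR (B : Matrix (Fin n) (Fin n) ℂ) (a : Fin n → ℂ) (i : Fin n)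
    (z : Fin n → ℂ) : DifferentiableAt ℝ (fun z => conj (B.mulVec (z - a) i)) z :=
  Complex.conjCLE.differentiableAt.comp z (mv_diffR B a i z)

theorem dz_mv (B : Matrix (Fin n) (Fin n) ℂ) (a : Fin n → ℂ) (i j : Fin n) (z : Fin n → ℂ) :
    dz j (fun z => B.mulVec (z - a) i) z = B i j := by
  rw [dz_holo (mv_diff B a i z).differentiableAt, (mv_diff B a i z).fderiv]
  simp

theorem dzb_mv (B : Matrix (Fin n) (Fin n) ℂ) (a : Fin n → ℂ) (i j : Fin n) (z : Fin n → ℂ) :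
    dzb j (fun z => B.mulVec (z - a) i) z = 0 := dzb_holo (mv_diff B a i z).differentiableAt

theorem dz_mv_conj (B : Matrix (Fin n) (Fin n) ℂ) (a : Fin n → ℂ) (i j : Fin n)
    (z : Fin n → ℂ) : dz j (fun z => conj (B.mulVec (z - a) i)) z = 0 := by
  rw [dz_conj (f := fun z => B.mulVec (z - a) i), dzb_mv, map_zero]

theorem dzb_mv_conj (B : Matrix (Fin n) (Fin n) ℂ) (a : Fin n → ℂ) (i j : Fin n)
    (z : Fin n → ℂ) : dzb j (fun z => conj (B.mulVec (z - a) i)) z = conj (B i j) := by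
  rw [dzb_conj (f := fun z => B.mulVec (z - a) i), dz_mv]

theorem qd_cast (B : Matrix (Fin n) (Fin n) ℂ) (a : Fin n → ℂ) : (fun z => (qd B a z : ℂ)) =
    fun z => ∑ i, (B.mulVec (z - a) i) * conj (B.mulVec (z - a) i) := by
  funext z
  unfold qd nsq
  push_cast
  refine Finset.sum_congr rfl fun i _ => ?_
  rw [Complex.mul_conj, Complex.normSq_eq_norm_sq]
  push_cast
  rfl

theorem dzb_qd (B : Matrix (Fin n) (Fin n) ℂ) (a : Fin n → ℂ) (k : Fin n) (z : Fin n → ℂ) :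
    dzb k (fun z => (qd B a z : ℂ)) z = ∑ i, B.mulVec (z - a) i * conj (B i k) := by
  rw [qd_cast, dzb_sum (f := fun i z => (B.mulVec (z - a) i) * conj (B.mulVec (z - a) i)) _
    fun i _ => (mv_diffR B a i z).mul (mv_conj_diffR B a i z)]
  refine Finset.sum_congr rfl fun i _ => ?_
  rw [dzb_mul (mv_diffR B a i z) (mv_conj_diffR B a i z), dzb_mv_conj, dzb_mv]
  ring

theorem dz_qd (B : Matrix (Fin n) (Fin n) ℂ) (a : Fin n → ℂ) (k : Fin n) (z : Fin n → ℂ) :
    dz k (fun z => (qd B a z : ℂ)) z = ∑ i, B i k * conj (B.mulVec (z - a) i) := by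
  have h1 : (fun z => (qd B a z : ℂ)) = fun z => conj ((fun z => (qd B a z : ℂ)) z) := by
    funext z
    simp
  rw [h1, dz_conj, dzb_qd, map_sum]
  refine Finset.sum_congr rfl fun i _ => ?_
  rw [map_mul, Complex.conj_conj, mul_comm]

theorem dz_dzb_qd (B : Matrix (Fin n) (Fin n) ℂ) (a : Fin n → ℂ) (j k : Fin n)
    (z : Fin n → ℂ) :
    dz j (dzb k (fun z => (qd B a z : ℂ))) z = ∑ i, B i j * conj (B i k) := by
  have h1 : dzb k (fun z => (qd B a z : ℂ)) =
      fun z => ∑ i, B.mulVec (z - a) i * conj (B i k) := funext fun z => dzb_qd B a k z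
  rw [h1, dz_sum (f := fun i z => B.mulVec (z - a) i * conj (B i k)) _
    fun i _ => (mv_diffR B a i z).mul (differentiableAt_const _)]
  refine Finset.sum_congr rfl fun i _ => ?_
  rw [dz_mul (mv_diffR B a i z) (differentiableAt_const _), dz_mv, dz_const]
  ring

/-- `∑ ∂_j q β_j`. -/
theorem sum_dz_qd (B : Matrix (Fin n) (Fin n) ℂ) (a β z : Fin n → ℂ) :
    ∑ j, dz j (fun z => (qd B a z : ℂ)) z * β j =
      ∑ i, B.mulVec β i * conj (B.mulVec (z - a) i) := by
  simp only [dz_qd, Finset.sum_mul, Matrix.mulVec, dotProduct]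
  rw [Finset.sum_comm]
  refine Finset.sum_congr rfl fun i _ => ?_
  refine Finset.sum_congr rfl fun j _ => ?_
  ring

theorem sum_dzb_qd (B : Matrix (Fin n) (Fin n) ℂ) (a β z : Fin n → ℂ) :
    ∑ j, dzb j (fun z => (qd B a z : ℂ)) z * conj (β j) =
      ∑ i, B.mulVec (z - a) i * conj (B.mulVec β i) := by
  simp only [dzb_qd, Finset.sum_mul]
  rw [Finset.sum_comm]
  refine Finset.sum_congr rfl fun i _ => ?_
  have h1 : conj (B.mulVec β i) = ∑ j, conj (B i j) * conj (β j) := by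
    simp only [Matrix.mulVec, dotProduct, map_sum, map_mul]
  rw [h1, Finset.mul_sum]
  refine Finset.sum_congr rfl fun j _ => ?_
  ring

/-- Cauchy-Schwarz. -/
theorem cs (u v : Fin n → ℂ) : ‖∑ i, u i * conj (v i)‖ ^ 2 ≤ nsq u * nsq v := by
  calc ‖∑ i, u i * conj (v i)‖ ^ 2 ≤ (∑ j, ‖u j‖ * ‖v j‖) ^ 2 := by
        gcongr
        refine (norm_sum_le _ _).trans (Finset.sum_le_sum fun j _ => ?_)
        rw [norm_mul, RCLike.norm_conj]
    _ ≤ (∑ j, ‖u j‖ ^ 2) * ∑ j, ‖v j‖ ^ 2 := Finset.sum_mul_sq_le_sq_mul_sq _ _ _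

/-- Levi form of a function of `qd B a` on a sheet. -/
theorem levi_qd {W : Set (Fin n → ℂ)} {s : (Fin n → ℂ) → ℕ} (h : S.IsSection W s)
    (B : Matrix (Fin n) (Fin n) ℂ) (a : Fin n → ℂ) {φ : ℝ → ℝ} (hφ : ContDiff ℝ 2 φ)
    {z : Fin n → ℂ} (hz : z ∈ W) (β : Fin n → ℂ) :
    S.levi (shr W s (fun z => φ (qd B a z))) β (z, s z) =
      deriv φ (qd B a z) * nsq (B.mulVec β) +
      deriv (deriv φ) (qd B a z) * ‖∑ i, B.mulVec β i * conj (B.mulVec (z - a) i)‖ ^ 2 := by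
  have hp : ContDiffOn ℝ 2 (qd B a) S.V :=
    ((qd_contDiff B a).of_le (by norm_cast)).contDiffOn
  have h1 := levi_comp (S := S) hφ hp (h.mem_M hz) β
  have h2 : S.levi (shr W s (fun z => φ (qd B a z))) β (z, s z) =
      S.levi (fun q => φ (qd B a q.1)) β (z, s z) := by
    rw [levi_shr h hz]
    rfl
  rw [h2, h1]
  have e1 : (∑ j, ∑ k, dz j (dzb k (fun z => (qd B a z : ℂ))) z * β j * conj (β k)).re =
      nsq (B.mulVec β) := by
    have e2 : ∑ j, ∑ k, dz j (dzb k (fun z => (qd B a z : ℂ))) z * β j * conj (β k) =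
        ∑ i, B.mulVec β i * conj (B.mulVec β i) := by
      have e3 : ∀ i, B.mulVec β i * conj (B.mulVec β i) =
          ∑ j, ∑ k, (B i j * conj (B i k)) * β j * conj (β k) := by
        intro i
        simp only [Matrix.mulVec, dotProduct, map_sum, map_mul]
        rw [Finset.sum_mul_sum]
        refine Finset.sum_congr rfl fun j _ => Finset.sum_congr rfl fun k _ => ?_
        ring
      simp only [e3, dz_dzb_qd, Finset.sum_mul]
      rw [Finset.sum_congr rfl fun j _ => Finset.sum_comm, Finset.sum_comm]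
    rw [e2]
    unfold nsq
    rw [Complex.re_sum]
    refine Finset.sum_congr rfl fun i _ => ?_
    rw [Complex.mul_conj, Complex.ofReal_re, Complex.normSq_eq_norm_sq]
  simp only [] at e1 ⊢
  rw [e1, sum_dz_qd]

/-- Lower bound of the Levi form of the model weight. -/
theorem levi_GG {W : Set (Fin n → ℂ)} {s : (Fin n → ℂ) → ℕ} (h : S.IsSection W s)
    (B : Matrix (Fin n) (Fin n) ℂ) (a : Fin n → ℂ) {τ : ℝ} (hτ : 0 < τ) {C0 : ℝ}
    (hC0 : ∀ x, |deriv rho x| ≤ C0) {z : Fin n → ℂ} (hz : z ∈ W) (β : Fin n → ℂ) :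
    (if qd B a z < 1 then -(C0 * nsq (B.mulVec β)) else 0) ≤
      S.levi (shr W s (fun z => GG τ (qd B a z))) β (z, s z) := by
  rw [levi_qd h B a ((GG_contDiff hτ).of_le (by norm_cast)) hz]
  refine GG_levi hτ hC0 (qd_nonneg _ _ _) (by positivity) (nsq_nonneg _) ?_
  rw [mul_comm]
  exact cs _ _

end Vale.Agent.P299.H465
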