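import Vale.Agent.P299.H465.Van
import Vale.Agent.P300.H435.L2.LeviLog

/-!
P299, helper465: peak functions at finitely many points of one sheet.
-/

set_option linter.all false

open MeasureTheory Filter Topology
open scoped ENNReal NNReal ComplexConjugate
open Vale.Agent.P300.L2

namespace Vale.Agent.P299.H465

open Vale.Agent.P300.L2.Sheets

variable {n N : ℕ} {S : Sheets n N}

/-- Levi forms: finite sums. -/
theorem levi_sum {ι : Type*} (t : Finset ι) {F : ι → (Fin n → ℂ) × ℕ → ℝ}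
    (hF : ∀ i ∈ t, S.CD 2 (fun q => (F i q : ℂ))) {q : (Fin n → ℂ) × ℕ} (hq : q ∈ S.M)
    (β : Fin n → ℂ) : S.levi (fun q => ∑ i ∈ t, F i q) β q = ∑ i ∈ t, S.levi (F i) β q := by
  classical
  induction t using Finset.induction_on with
  | empty =>
    simp only [Finset.sum_empty]
    unfold levi
    have h1 : ∀ j k, S.D j (S.Db k (fun _ => ((0 : ℝ) : ℂ))) q = 0 := by
      intro j k
      have h2 : S.Db k (fun _ => ((0 : ℝ) : ℂ)) = fun _ => 0 := by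
        funext q'
        exact dzb_const _
      rw [h2]
      exact dz_const 0
    simp only [h1, zero_mul, Finset.sum_const_zero, Complex.zero_re]
  | insert a t ha ih =>
    simp only [Finset.sum_insert ha]
    have hF' : ∀ i ∈ t, S.CD 2 (fun q => (F i q : ℂ)) := fun i hi =>
      hF i (Finset.mem_insert_of_mem hi)
    have h1 : S.CD 2 (fun q => ((∑ i ∈ t, F i q : ℝ) : ℂ)) := by
      refine (CD.sum t hF').congr fun q _ => ?_
      push_cast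
      rfl
    rw [levi_add (hF a (Finset.mem_insert_self a t)) h1 hq, ih hF']

theorem levi_smul {F : (Fin n → ℂ) × ℕ → ℝ} (hF : S.CD 2 (fun q => (F q : ℂ))) (c : ℝ)
    {q : (Fin n → ℂ) × ℕ} (hq : q ∈ S.M) (β : Fin n → ℂ) :
    S.levi (fun q => c * F q) β q = c * S.levi F β q := by
  have h4 := levi_lin hF hF c 0 hq β
  have h5 : (fun q => c * F q + 0 * F q) = fun q => c * F q := by
    funext q
    ring
  rw [h5] at h4
  rw [h4]
  ring

theorem ball_compact {B : Matrix (Fin n) (Fin n) ℂ} (hB : IsUnit B.det) (a : Fin n → ℂ) (r : ℝ) :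
    IsCompact {z | qd B a z ≤ r} := by
  have h1 : IsCompact {w : Fin n → ℂ | nsq w ≤ r} := by
    refine Metric.isCompact_of_isClosed_isBounded (isClosed_le nsq_continuous continuous_const) ?_
    refine (Metric.isBounded_closedBall (x := (0 : Fin n → ℂ)) (r := Real.sqrt r)).subset ?_
    intro w hw
    rw [mem_closedBall_zero_iff]
    refine Real.le_sqrt_of_sq_le ((norm_sq_le_nsq w).trans hw)
  have h2 : {z | qd B a z ≤ r} = (fun w => a + B⁻¹.mulVec w) '' {w : Fin n → ℂ | nsq w ≤ r} := by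
    ext z
    constructor
    · intro hz
      refine ⟨B.mulVec (z - a), hz, ?_⟩
      simp only
      rw [Matrix.mulVec_mulVec, Matrix.nonsing_inv_mul _ hB, Matrix.one_mulVec]
      abel
    · rintro ⟨w, hw, rfl⟩
      show nsq (B.mulVec (a + B⁻¹.mulVec w - a)) ≤ r
      rw [add_sub_cancel_left, Matrix.mulVec_mulVec, Matrix.mul_nonsing_inv _ hB,
        Matrix.one_mulVec]
      exact hw
  rw [h2]
  refine h1.image ?_
  exact continuous_const.add ((Matrix.mulVecLin B⁻¹).continuous_of_finiteDimensional)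

/-- The cut-off function of one ellipsoid. -/
noncomputable def cutE (B : Matrix (Fin n) (Fin n) ℂ) (a z : Fin n → ℂ) : ℝ := rho (qd B a z)

theorem cutE_contDiff (B : Matrix (Fin n) (Fin n) ℂ) (a : Fin n → ℂ) :
    ContDiff ℝ (⊤ : ℕ∞) (cutE B a) := rho_contDiff.comp (qd_contDiff B a)

theorem cutE_zero {B : Matrix (Fin n) (Fin n) ℂ} {a z : Fin n → ℂ} (h : ¬ qd B a z ≤ 1) :
    cutE B a z = 0 := rho_eq_zero (not_le.1 h).le

theorem dzb_cutE (B : Matrix (Fin n) (Fin n) ℂ) (a z : Fin n → ℂ) (j : Fin n) :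
    dzb j (fun z => (cutE B a z : ℂ)) z =
      ((deriv rho (qd B a z) : ℝ) : ℂ) * dzb j (fun z => (qd B a z : ℂ)) z := by
  have h1 : DifferentiableAt ℝ (qd B a) z := (qd_contDiff B a).differentiable (by simp) z
  have h2 : DifferentiableAt ℝ rho (qd B a z) := rho_contDiff.differentiable (by simp) _
  exact dzb_comp_real h1 h2

theorem expneg_CD {Ψ : (Fin n → ℂ) × ℕ → ℝ} (hΨ : S.CD 2 (fun q => (Ψ q : ℂ))) :
    S.CD 0 (fun q => ((Real.exp (-Ψ q) : ℝ) : ℂ)) := by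
  refine (expH_CD hΨ (-1)).congr fun q _ => ?_
  congr 2
  ring

theorem aem_real {Y : (Fin n → ℂ) × ℕ → ℝ} (hY : S.CD 0 (fun q => (Y q : ℂ))) :
    AEMeasurable Y S.μ := by
  have h2 := Complex.measurable_re.comp_aemeasurable (aestronglyMeasurable_of_CD hY).aemeasurable
  refine h2.congr (Eventually.of_forall fun q => ?_)
  simp only [Function.comp_apply, Complex.ofReal_re]

theorem integrable_supp_exp {Y : (Fin n → ℂ) × ℕ → ℝ} (hY : S.CD 0 (fun q => (Y q : ℂ)))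
    (hYs : S.Supp (fun q => (Y q : ℂ))) {Ψ : (Fin n → ℂ) × ℕ → ℝ}
    (hΨ : S.CD 2 (fun q => (Ψ q : ℂ))) : Integrable (fun q => Y q * Real.exp (-Ψ q)) S.μ := by
  refine integrable_realH ?_ (hYs.of_zeroH fun q hq => ?_)
  · refine (hY.mul (expneg_CD hΨ)).congr fun q _ => ?_
    push_cast
    rfl
  · have : Y q = 0 := by exact_mod_cast hq
    simp [this]

theorem normsq_CD {X : (Fin n → ℂ) × ℕ → ℂ} (hX : S.CD 0 X) :
    S.CD 0 (fun q => ((‖X q‖ ^ 2 : ℝ) : ℂ)) :=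
  (hX.mul hX.conj).congr fun q _ => by rw [Complex.mul_conj, Complex.normSq_eq_norm_sq]

theorem normsq_supp {X : (Fin n → ℂ) × ℕ → ℂ} (hX : S.Supp X) :
    S.Supp (fun q => ((‖X q‖ ^ 2 : ℝ) : ℂ)) := hX.of_zeroH fun q hq => by simp [hq]

/-- Triangle inequality for weighted norms. -/
theorem norm_split {F σ : (Fin n → ℂ) × ℕ → ℂ} (hσ : S.CD 0 σ) {Φ Φ' : (Fin n → ℂ) × ℕ → ℝ}
    (hΦ : S.CD 2 (fun q => (Φ q : ℂ))) (hle : ∀ q, Φ' q ≤ Φ q)
    (h1 : ∫⁻ q, ENNReal.ofReal (‖F q - σ q‖ ^ 2 * Real.exp (-Φ' q)) ∂S.μ < ⊤)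
    (h2 : ∫⁻ q, ENNReal.ofReal (‖σ q‖ ^ 2 * Real.exp (-Φ q)) ∂S.μ < ⊤) :
    ∫⁻ q, ENNReal.ofReal (‖F q‖ ^ 2 * Real.exp (-Φ q)) ∂S.μ < ⊤ := by
  have hms : AEMeasurable (fun q => ENNReal.ofReal (‖σ q‖ ^ 2 * Real.exp (-Φ q))) S.μ :=
    ((aem_real (normsq_CD hσ)).mul (aem_real (expneg_CD hΦ))).ennreal_ofReal
  have h3 : ∫⁻ q, ENNReal.ofReal (‖F q‖ ^ 2 * Real.exp (-Φ q)) ∂S.μ ≤
      2 * ∫⁻ q, ENNReal.ofReal (‖F q - σ q‖ ^ 2 * Real.exp (-Φ' q)) ∂S.μ +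
      2 * ∫⁻ q, ENNReal.ofReal (‖σ q‖ ^ 2 * Real.exp (-Φ q)) ∂S.μ := by
    rw [← lintegral_const_mul' _ _ (by norm_num), ← lintegral_const_mul' _ _ (by norm_num),
      ← lintegral_add_right' _ (hms.const_mul _)]
    refine lintegral_mono fun q => ?_
    have e2 : (2 : ℝ≥0∞) = ENNReal.ofReal 2 := by simp
    rw [e2, ← ENNReal.ofReal_mul (by norm_num), ← ENNReal.ofReal_mul (by norm_num),
      ← ENNReal.ofReal_add (by positivity) (by positivity)]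
    refine ENNReal.ofReal_le_ofReal ?_
    have h2 : Real.exp (-Φ q) ≤ Real.exp (-Φ' q) := Real.exp_le_exp.2 (neg_le_neg (hle q))
    have h3 : ‖F q‖ ^ 2 ≤ 2 * ‖F q - σ q‖ ^ 2 + 2 * ‖σ q‖ ^ 2 := by
      have h4 : ‖F q‖ ≤ ‖F q - σ q‖ + ‖σ q‖ := by
        calc ‖F q‖ = ‖(F q - σ q) + σ q‖ := by rw [sub_add_cancel]
          _ ≤ _ := norm_add_le _ _
      nlinarith [sq_nonneg (‖F q - σ q‖ - ‖σ q‖), norm_nonneg (F q), norm_nonneg (σ q),
        norm_nonneg (F q - σ q)]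
    calc ‖F q‖ ^ 2 * Real.exp (-Φ q)
        ≤ (2 * ‖F q - σ q‖ ^ 2 + 2 * ‖σ q‖ ^ 2) * Real.exp (-Φ q) := by gcongr
      _ = 2 * (‖F q - σ q‖ ^ 2 * Real.exp (-Φ q)) + 2 * (‖σ q‖ ^ 2 * Real.exp (-Φ q)) := by
          ring
      _ ≤ 2 * (‖F q - σ q‖ ^ 2 * Real.exp (-Φ' q)) +
            2 * (‖σ q‖ ^ 2 * Real.exp (-Φ q)) := by gcongr
  exact h3.trans_lt (ENNReal.add_lt_top.2 ⟨ENNReal.mul_lt_top (by norm_num) h1,
    ENNReal.mul_lt_top (by norm_num) h2⟩)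

/-- Disjoint ellipsoids on one sheet. -/
structure PD (S : Sheets n N) (ι : Type*) where
  W : Set (Fin n → ℂ)
  s : (Fin n → ℂ) → ℕ
  h : S.IsSection W s
  B : ι → Matrix (Fin n) (Fin n) ℂ
  hB : ∀ i, IsUnit (B i).det
  a : ι → Fin n → ℂ
  hEW : ∀ i z, qd (B i) (a i) z ≤ 1 → z ∈ W
  hdisj : ∀ i j, i ≠ j → ∀ z, qd (B i) (a i) z < 1 → ¬ qd (B j) (a j) z < 1

namespace PD

variable {ι : Type*} (P : PD S ι)

theorem closed (i : ι) : IsClosed {z | qd (P.B i) (P.a i) z ≤ 1} :=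
  (ball_compact (P.hB i) (P.a i) 1).isClosed

theorem subW (i : ι) : {z | qd (P.B i) (P.a i) z ≤ 1} ⊆ P.W := fun z hz => P.hEW i z hz

theorem haj (i : ι) : P.a i ∈ P.W := P.hEW i _ (by rw [qd_self]; norm_num)

/-- The singular weight at the `i`-th point. -/
noncomputable def G (τ : ℝ) (i : ι) : (Fin n → ℂ) × ℕ → ℝ :=
  shr P.W P.s (fun z => GG τ (qd (P.B i) (P.a i) z))

theorem G_zero {τ : ℝ} (hτ : 0 < τ) (i : ι) : ∀ z, z ∉ {z | qd (P.B i) (P.a i) z ≤ 1} →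
    GG τ (qd (P.B i) (P.a i) z) = 0 := fun z hz => GG_eq_zero hτ (not_le.1 hz).le

theorem G_CD {τ : ℝ} (hτ : 0 < τ) (i : ι) : S.CD 2 (fun q => (P.G τ i q : ℂ)) :=
  shr_CD P.h (P.closed i) (P.subW i) (P.G_zero hτ i)
    (((GG_contDiff hτ).comp (qd_contDiff (P.B i) (P.a i))).of_le (by norm_cast))

theorem G_le {τ : ℝ} (hτ : 0 < τ) (i : ι) (q : (Fin n → ℂ) × ℕ) : P.G τ i q ≤ 0 := by
  unfold G shr
  split_ifs
  · exact GG_le_zero hτ _
  · exact le_refl _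

theorem G_anti {τ τ' : ℝ} (hτ : 0 < τ) (hh : τ ≤ τ') (i : ι) (q : (Fin n → ℂ) × ℕ) :
    P.G τ i q ≤ P.G τ' i q := by
  unfold G shr
  split_ifs
  · exact GG_anti hτ hh _
  · exact le_refl _

theorem levi_G {τ : ℝ} (hτ : 0 < τ) {C0 : ℝ} (hC0 : ∀ x, |deriv rho x| ≤ C0) (i : ι)
    {q : (Fin n → ℂ) × ℕ} (hq : q ∈ S.M) (β : Fin n → ℂ)
    (hnot : ¬ (q.2 = P.s q.1 ∧ qd (P.B i) (P.a i) q.1 < 1)) : 0 ≤ S.levi (P.G τ i) β q := by
  by_cases h1 : q.1 ∈ {z | qd (P.B i) (P.a i) z ≤ 1} ∧ q.2 = P.s q.1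
  · have hz := P.subW i h1.1
    have h2 := levi_GG P.h (P.B i) (P.a i) hτ hC0 hz β
    have h3 : q = (q.1, P.s q.1) := by
      ext1
      · rfl
      · exact h1.2
    rw [if_neg (fun h4 => hnot ⟨h1.2, h4⟩)] at h2
    rw [h3]
    exact h2
  · unfold G
    rw [levi_shr_off P.h (P.closed i) (P.subW i) (P.G_zero hτ i) hq h1]

variable [Fintype ι]

/-- The weights. -/
noncomputable def wt (Φ : (Fin n → ℂ) × ℕ → ℝ) (τ : ℝ) (q : (Fin n → ℂ) × ℕ) : ℝ :=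
  Φ q + ((n : ℝ) + 1) * ∑ i, P.G τ i q

theorem sum_CD {τ : ℝ} (hτ : 0 < τ) : S.CD 2 (fun q => ((∑ i, P.G τ i q : ℝ) : ℂ)) := by
  refine (CD.sum Finset.univ fun i _ => P.G_CD hτ i).congr fun q _ => ?_
  push_cast
  rfl

theorem wt_CD {Φ : (Fin n → ℂ) × ℕ → ℝ} (hΦ : S.CD 2 (fun q => (Φ q : ℂ))) {τ : ℝ}
    (hτ : 0 < τ) : S.CD 2 (fun q => (P.wt Φ τ q : ℂ)) := by
  refine (hΦ.add ((CD.const ((n : ℂ) + 1)).mul (P.sum_CD hτ))).congr fun q _ => ?_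
  unfold wt
  push_cast
  rfl

theorem wt_anti (Φ : (Fin n → ℂ) × ℕ → ℝ) {τ τ' : ℝ} (hτ : 0 < τ) (hh : τ ≤ τ')
    (q : (Fin n → ℂ) × ℕ) : P.wt Φ τ q ≤ P.wt Φ τ' q := by
  unfold wt
  have : ∑ i, P.G τ i q ≤ ∑ i, P.G τ' i q := Finset.sum_le_sum fun i _ => P.G_anti hτ hh i q
  gcongr

theorem wt_le (Φ : (Fin n → ℂ) × ℕ → ℝ) {τ : ℝ} (hτ : 0 < τ) (q : (Fin n → ℂ) × ℕ) :
    P.wt Φ τ q ≤ Φ q := by
  unfold wt
  have h1 : ∑ i, P.G τ i q ≤ 0 := Finset.sum_nonpos fun i _ => P.G_le hτ i q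
  have h2 : ((n : ℝ) + 1) * ∑ i, P.G τ i q ≤ 0 :=
    mul_nonpos_of_nonneg_of_nonpos (by positivity) h1
  linarith

theorem wt_le' [DecidableEq ι] (Φ : (Fin n → ℂ) × ℕ → ℝ) {τ : ℝ} (hτ : 0 < τ) (j : ι)
    {z : Fin n → ℂ} (hz : z ∈ P.W) :
    P.wt Φ τ (z, P.s z) ≤ Φ (z, P.s z) + (n + 1) * GG τ (qd (P.B j) (P.a j) z) := by
  unfold wt
  have h2 : ∑ i, P.G τ i (z, P.s z) ≤ GG τ (qd (P.B j) (P.a j) z) := by
    rw [← Finset.add_sum_erase _ _ (Finset.mem_univ j)]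
    have h3 : P.G τ j (z, P.s z) = GG τ (qd (P.B j) (P.a j) z) := shr_on hz
    have h4 : ∑ i ∈ Finset.univ.erase j, P.G τ i (z, P.s z) ≤ 0 :=
      Finset.sum_nonpos fun i _ => P.G_le hτ i _
    linarith
  gcongr

theorem levi_wt {Φ : (Fin n → ℂ) × ℕ → ℝ} (hΦ : S.CD 2 (fun q => (Φ q : ℂ))) {τ : ℝ}
    (hτ : 0 < τ) {q : (Fin n → ℂ) × ℕ} (hq : q ∈ S.M) (β : Fin n → ℂ) :
    S.levi (P.wt Φ τ) β q = S.levi Φ β q + (n + 1) * ∑ i, S.levi (P.G τ i) β q := by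
  have h3 : S.CD 2 (fun q => ((((n : ℝ) + 1) * ∑ i, P.G τ i q : ℝ) : ℂ)) := by
    refine ((CD.const ((n : ℂ) + 1)).mul (P.sum_CD hτ)).congr fun q _ => ?_
    push_cast
    rfl
  have h1 := levi_add hΦ h3 hq β
  rw [levi_smul (P.sum_CD hτ) _ hq, levi_sum Finset.univ (fun i _ => P.G_CD hτ i) hq] at h1
  exact h1

theorem main_levi [DecidableEq ι] {Φ : (Fin n → ℂ) × ℕ → ℝ}
    (hΦ : S.CD 2 (fun q => (Φ q : ℂ))) {C0 : ℝ} (hC0 : ∀ x, |deriv rho x| ≤ C0)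
    (hcurv : ∀ i z, qd (P.B i) (P.a i) z < 1 → ∀ β,
      ((n + 1) * C0 + 1) * nsq ((P.B i).mulVec β) ≤ S.levi Φ β (z, P.s z)) {τ : ℝ}
    (hτ : 0 < τ) (i : ι) {q : (Fin n → ℂ) × ℕ} (hq : q ∈ S.M) (h1 : q.2 = P.s q.1)
    (h2 : qd (P.B i) (P.a i) q.1 < 1) (β : Fin n → ℂ) :
    nsq ((P.B i).mulVec β) ≤ S.levi (P.wt Φ τ) β q := by
  have hz : q.1 ∈ P.W := P.hEW i _ h2.le
  have h3 : q = (q.1, P.s q.1) := by
    ext1
    · rfl
    · exact h1
  rw [P.levi_wt hΦ hτ hq, ← Finset.add_sum_erase _ _ (Finset.mem_univ i)]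
  have h4 : 0 ≤ ∑ j ∈ Finset.univ.erase i, S.levi (P.G τ j) β q := by
    refine Finset.sum_nonneg fun j hj => P.levi_G hτ hC0 j hq β ?_
    rintro ⟨-, h5⟩
    exact P.hdisj i j (Finset.ne_of_mem_erase hj).symm q.1 h2 h5
  have h5 := levi_GG P.h (P.B i) (P.a i) hτ hC0 hz β
  rw [if_pos h2] at h5
  have h6 := hcurv i q.1 h2 β
  rw [← h3] at h5 h6
  have h7 : -(C0 * nsq ((P.B i).mulVec β)) ≤ S.levi (P.G τ i) β q := h5
  have h8 : ((n : ℝ) + 1) * -(C0 * nsq ((P.B i).mulVec β)) ≤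
      (n + 1) * (S.levi (P.G τ i) β q + ∑ j ∈ Finset.univ.erase i, S.levi (P.G τ j) β q) := by
    gcongr
    linarith
  linarith

theorem levi_nonneg [DecidableEq ι] {Φ : (Fin n → ℂ) × ℕ → ℝ}
    (hΦ : S.CD 2 (fun q => (Φ q : ℂ))) (hlevi : ∀ q ∈ S.M, ∀ β : Fin n → ℂ, 0 ≤ S.levi Φ β q)
    {C0 : ℝ} (hC0 : ∀ x, |deriv rho x| ≤ C0)
    (hcurv : ∀ i z, qd (P.B i) (P.a i) z < 1 → ∀ β,
      ((n + 1) * C0 + 1) * nsq ((P.B i).mulVec β) ≤ S.levi Φ β (z, P.s z)) {τ : ℝ}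
    (hτ : 0 < τ) {q : (Fin n → ℂ) × ℕ} (hq : q ∈ S.M) (β : Fin n → ℂ) :
    0 ≤ S.levi (P.wt Φ τ) β q := by
  by_cases hex : ∃ i, q.2 = P.s q.1 ∧ qd (P.B i) (P.a i) q.1 < 1
  · obtain ⟨i, h1, h2⟩ := hex
    exact (nsq_nonneg _).trans (P.main_levi hΦ hC0 hcurv hτ i hq h1 h2 β)
  · rw [P.levi_wt hΦ hτ hq]
    have h1 : 0 ≤ ∑ i, S.levi (P.G τ i) β q :=
      Finset.sum_nonneg fun i _ => P.levi_G hτ hC0 i hq β fun h2 => hex ⟨i, h2⟩
    have h2 := hlevi q hq β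
    have h3 : (0 : ℝ) ≤ (n : ℝ) + 1 := by positivity
    exact add_nonneg h2 (mul_nonneg h3 h1)

/-- The smooth peak. -/
noncomputable def pk (i : ι) : (Fin n → ℂ) × ℕ → ℂ :=
  shf P.W P.s (fun z => (cutE (P.B i) (P.a i) z : ℂ))

omit [Fintype ι]

theorem pk_zero (i : ι) : ∀ z, z ∉ {z | qd (P.B i) (P.a i) z ≤ 1} →
    (fun z => (cutE (P.B i) (P.a i) z : ℂ)) z = 0 := by
  intro z hz
  simp only [cutE_zero hz, Complex.ofReal_zero]

theorem pk_CD (i : ι) : S.CD 2 (P.pk i) := by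
  have h1 : ContDiff ℝ ((2 : ℕ) : WithTop ℕ∞) (cutE (P.B i) (P.a i)) :=
    (cutE_contDiff (P.B i) (P.a i)).of_le (by norm_cast)
  have h2 : ContDiff ℝ ((2 : ℕ) : WithTop ℕ∞) (fun z => (cutE (P.B i) (P.a i) z : ℂ)) :=
    Complex.ofRealCLM.contDiff.comp h1
  exact shf_CD P.h (P.closed i) (P.subW i) (P.pk_zero i) h2

theorem supp_shf (i : ι) {g : (Fin n → ℂ) → ℂ}
    (hg : ∀ z, z ∉ {z | qd (P.B i) (P.a i) z ≤ 1} → g z = 0) : S.Supp (shf P.W P.s g) :=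
  ⟨_, ball_compact (P.hB i) (P.a i) 1, (P.subW i).trans P.h.subset, fun _ hq => shf_zero (hg _ hq)⟩

theorem pk_supp (i : ι) : S.Supp (P.pk i) := P.supp_shf i (P.pk_zero i)

/-- The majorant of `|∂̄ pk|²`. -/
noncomputable def mj (i : ι) : (Fin n → ℂ) × ℕ → ℝ :=
  shr P.W P.s (fun z => (deriv rho (qd (P.B i) (P.a i) z)) ^ 2 * qd (P.B i) (P.a i) z)

theorem mj_zero (i : ι) : ∀ z, z ∉ {z | qd (P.B i) (P.a i) z ≤ 1} →
    (fun z => (deriv rho (qd (P.B i) (P.a i) z)) ^ 2 * qd (P.B i) (P.a i) z) z = 0 := by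
  intro z hz
  simp only [deriv_rho_zero (not_le.1 hz).le]
  ring

theorem mj_CD (i : ι) : S.CD 0 (fun q => (P.mj i q : ℂ)) := by
  refine shr_CD P.h (P.closed i) (P.subW i) (P.mj_zero i) ?_
  refine ContDiff.mul (ContDiff.pow ?_ 2) ((qd_contDiff _ _).of_le (by norm_cast))
  exact (rho_deriv_contDiff.comp (qd_contDiff _ _)).of_le (by norm_cast)

theorem mj_supp (i : ι) : S.Supp (fun q => (P.mj i q : ℂ)) := by
  unfold mj
  rw [shr_cast]
  refine P.supp_shf i fun z hz => ?_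
  have := P.mj_zero i z hz
  simp only at this
  rw [this, Complex.ofReal_zero]

theorem mj_nonneg (i : ι) (q : (Fin n → ℂ) × ℕ) : 0 ≤ P.mj i q := by
  unfold mj shr
  split_ifs
  · exact mul_nonneg (sq_nonneg _) (qd_nonneg _ _ _)
  · exact le_refl _

theorem pk_ab (i : ι) {q : (Fin n → ℂ) × ℕ} (hq : q ∈ S.M) (β : Fin n → ℂ) {l : ℝ}
    (hl0 : 0 ≤ l) (hl : q.2 = P.s q.1 → qd (P.B i) (P.a i) q.1 < 1 →
      nsq ((P.B i).mulVec β) ≤ l) :
    ‖∑ j, S.Db j (P.pk i) q * conj (β j)‖ ^ 2 ≤ P.mj i q * l := by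
  by_cases h1 : q.2 = P.s q.1 ∧ qd (P.B i) (P.a i) q.1 < 1
  · have hz : q.1 ∈ P.W := P.hEW i _ h1.2.le
    have h3 : q = (q.1, P.s q.1) := by
      ext1
      · rfl
      · exact h1.1
    have h4 : ∀ j, S.Db j (P.pk i) q = dzb j (fun z => (cutE (P.B i) (P.a i) z : ℂ)) q.1 := by
      intro j
      rw [h3]
      exact Db_shf P.h hz j
    have h5 : P.mj i q =
        (deriv rho (qd (P.B i) (P.a i) q.1)) ^ 2 * qd (P.B i) (P.a i) q.1 := by
      rw [h3]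
      exact shr_on hz
    rw [h5]
    simp only [h4]
    have h6 : ∑ j, dzb j (fun z => (cutE (P.B i) (P.a i) z : ℂ)) q.1 * conj (β j) =
        ((deriv rho (qd (P.B i) (P.a i) q.1) : ℝ) : ℂ) *
          ∑ k, (P.B i).mulVec (q.1 - P.a i) k * conj ((P.B i).mulVec β k) := by
      rw [← sum_dzb_qd, Finset.mul_sum]
      refine Finset.sum_congr rfl fun j _ => ?_
      rw [dzb_cutE]
      ring
    rw [h6, norm_mul, mul_pow, Complex.norm_real, Real.norm_eq_abs, sq_abs]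
    have h7 : ‖∑ k, (P.B i).mulVec (q.1 - P.a i) k * conj ((P.B i).mulVec β k)‖ ^ 2 ≤
        qd (P.B i) (P.a i) q.1 * nsq ((P.B i).mulVec β) :=
      cs ((P.B i).mulVec (q.1 - P.a i)) ((P.B i).mulVec β)
    have h8 := hl h1.1 h1.2
    have h9 := qd_nonneg (P.B i) (P.a i) q.1
    calc (deriv rho (qd (P.B i) (P.a i) q.1)) ^ 2 *
          ‖∑ k, (P.B i).mulVec (q.1 - P.a i) k * conj ((P.B i).mulVec β k)‖ ^ 2
        ≤ (deriv rho (qd (P.B i) (P.a i) q.1)) ^ 2 *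
          (qd (P.B i) (P.a i) q.1 * nsq ((P.B i).mulVec β)) := by gcongr
      _ ≤ (deriv rho (qd (P.B i) (P.a i) q.1)) ^ 2 * (qd (P.B i) (P.a i) q.1 * l) := by gcongr
      _ = (deriv rho (qd (P.B i) (P.a i) q.1)) ^ 2 * qd (P.B i) (P.a i) q.1 * l := by ring
  · have h4 : ∀ j, S.Db j (P.pk i) q = 0 := by
      intro j
      by_cases h5 : q.1 ∈ {z | qd (P.B i) (P.a i) z ≤ 1} ∧ q.2 = P.s q.1
      · have hz : q.1 ∈ P.W := P.subW i h5.1
        have h3 : q = (q.1, P.s q.1) := by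
          ext1
          · rfl
          · exact h5.2
        have h6 : S.Db j (P.pk i) q = dzb j (fun z => (cutE (P.B i) (P.a i) z : ℂ)) q.1 := by
          rw [h3]
          exact Db_shf P.h hz j
        have h7 : 1 ≤ qd (P.B i) (P.a i) q.1 := not_lt.1 fun h8 => h1 ⟨h5.2, h8⟩
        rw [h6, dzb_cutE, deriv_rho_zero h7]
        simp
      · exact Db_shf_off P.h (P.closed i) (P.subW i) (P.pk_zero i) hq h5 j
    simp only [h4, zero_mul, Finset.sum_const_zero, norm_zero]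
    have := mul_nonneg (P.mj_nonneg i q) hl0
    simpa using this

/-- The size of the weight on the support of the majorant. -/
theorem mj_exp [Fintype ι] [DecidableEq ι] (Φ : (Fin n → ℂ) × ℕ → ℝ) {τ : ℝ} (hτ : 0 < τ)
    (i : ι) (q : (Fin n → ℂ) × ℕ) : P.mj i q * Real.exp (-P.wt Φ τ q) ≤
      Real.exp (n + 1) * (P.mj i q * Real.exp (-Φ q)) := by
  by_cases h1 : P.mj i q = 0
  · rw [h1]
    simp
  · have h2 : q.1 ∈ P.W ∧ q.2 = P.s q.1 := by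
      by_contra h3
      exact h1 (shr_off h3)
    have h3 : (deriv rho (qd (P.B i) (P.a i) q.1)) ^ 2 * qd (P.B i) (P.a i) q.1 ≠ 0 :=
      fun h4 => h1 (shr_zero h4)
    have h4 : 1 / 2 ≤ qd (P.B i) (P.a i) q.1 := by
      by_contra h5
      apply h3
      rw [deriv_rho_zero' (not_le.1 h5).le]
      ring
    have h5 : qd (P.B i) (P.a i) q.1 < 1 := by
      by_contra h6
      apply h3
      rw [deriv_rho_zero (not_lt.1 h6)]
      ring
    have h6 : ∑ j, P.G τ j q = GG τ (qd (P.B i) (P.a i) q.1) := by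
      rw [Finset.sum_eq_single i]
      · unfold G shr
        rw [if_pos h2]
      · intro j _ hji
        unfold G shr
        rw [if_pos h2]
        exact GG_eq_zero hτ (not_lt.1 (P.hdisj i j hji.symm q.1 h5))
      · simp
    have h7 : -1 ≤ ∑ j, P.G τ j q := by
      rw [h6]
      exact GG_ge hτ h4
    have h8 : Real.exp (-P.wt Φ τ q) ≤ Real.exp (n + 1) * Real.exp (-Φ q) := by
      rw [← Real.exp_add]
      refine Real.exp_le_exp.2 ?_
      unfold wt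
      have : ((n : ℝ) + 1) * (-1) ≤ (n + 1) * ∑ j, P.G τ j q := by gcongr
      linarith
    calc P.mj i q * Real.exp (-P.wt Φ τ q) ≤ P.mj i q * (Real.exp (n + 1) * Real.exp (-Φ q)) :=
          mul_le_mul_of_nonneg_left h8 (P.mj_nonneg i q)
      _ = Real.exp (n + 1) * (P.mj i q * Real.exp (-Φ q)) := by ring

/-- One peak. -/
theorem one_peak [Fintype ι] [DecidableEq ι] {p : (Fin n → ℂ) → ℝ} {C : ℝ} {k0 : ℕ}
    (hp : Exh S.V p C k0) {Φ : (Fin n → ℂ) × ℕ → ℝ} (hΦ : S.CD 2 (fun q => (Φ q : ℂ)))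
    (hlevi : ∀ q ∈ S.M, ∀ β : Fin n → ℂ, 0 ≤ S.levi Φ β q) {C0 : ℝ}
    (hC0 : ∀ x, |deriv rho x| ≤ C0)
    (hcurv : ∀ i z, qd (P.B i) (P.a i) z < 1 → ∀ β,
      ((n + 1) * C0 + 1) * nsq ((P.B i).mulVec β) ≤ S.levi Φ β (z, P.s z)) (i : ι) :
    ∃ f : (Fin n → ℂ) × ℕ → ℂ, S.Holo f ∧
      (∀ j, f (P.a j, P.s (P.a j)) = if i = j then 1 else 0) ∧
      ∫⁻ q, ENNReal.ofReal (‖f q‖ ^ 2 * Real.exp (-Φ q)) ∂S.μ < ⊤ := by
  set τ : ℕ → ℝ := fun m => 1 / ((m : ℝ) + 1) with hτdef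
  have hτ0 : ∀ m, 0 < τ m := fun m => by positivity
  have hτlim : Tendsto τ atTop (𝓝 0) := tendsto_one_div_add_atTop_nhds_zero_nat
  have hτanti : ∀ m, τ (m + 1) ≤ τ m := fun m => by
    simp only [hτdef]
    have : (0 : ℝ) ≤ m := m.cast_nonneg
    apply one_div_le_one_div_of_le (by positivity)
    push_cast
    linarith
  have hint := integrable_supp_exp (P.mj_CD i) (P.mj_supp i) hΦ
  set A : ℝ := ∫ q, Real.exp (n + 1) * (P.mj i q * Real.exp (-Φ q)) ∂S.μ with hAdef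
  have hA0 : 0 ≤ A := integral_nonneg fun q => by
    have := P.mj_nonneg i q
    positivity
  have hA : ∀ m, ∫⁻ q, ENNReal.ofReal (P.mj i q * Real.exp (-P.wt Φ (τ m) q)) ∂S.μ ≤
      ENNReal.ofReal A := by
    intro m
    rw [hAdef, ofReal_integral_eq_lintegral_ofReal (hint.const_mul _)
      (Eventually.of_forall fun q => by
        have := P.mj_nonneg i q
        simp only [Pi.zero_apply]
        positivity)]
    exact lintegral_mono fun q => ENNReal.ofReal_le_ofReal (P.mj_exp Φ (hτ0 m) i q)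
  have hfin : ∀ m j, Fin2 S p (P.wt Φ (τ m)) (S.Db j (P.pk i)) := by
    intro m j
    refine ⟨0, ?_⟩
    have h2 : S.CD 0 (S.Db j (P.pk i)) := CD.Db (m := 0) ((P.pk_CD i).mono (by norm_num))
    have h3 := (integrable_supp_exp (normsq_CD h2) (normsq_supp (sm_supp_Db (P.pk_supp i)))
      (P.wt_CD hΦ (hτ0 m))).lintegral_lt_top
    simpa using h3
  obtain ⟨F, hF, hFn⟩ := holo_sing hp (fun m => P.wt_CD hΦ (hτ0 m))
    (fun m q _ => P.wt_anti Φ (hτ0 _) (hτanti m) q)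
    (fun m q hq β => P.levi_nonneg hΦ hlevi hC0 hcurv (hτ0 m) hq β)
    (P.pk_CD i) hfin (fun _ => P.mj i) (fun _ => P.mj_nonneg i) (fun _ => aem_real (P.mj_CD i))
    (fun m q hq β => P.pk_ab i hq β (P.levi_nonneg hΦ hlevi hC0 hcurv (hτ0 m) hq β)
      fun h1 h2 => P.main_levi hΦ hC0 hcurv (hτ0 m) i hq h1 h2 β) hA0 hA
  refine ⟨F, hF, fun j => ?_, ?_⟩
  · have haj := P.haj j
    have hFc : ContinuousAt (fun z => F (z, P.s z)) (P.a j) :=
      ((hF P.W P.s P.h).continuousOn).continuousAt (P.h.isOpen.mem_nhds haj)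
    have hσc : ContinuousAt (fun z => P.pk i (z, P.s z)) (P.a j) :=
      ((P.pk_CD i P.W P.s P.h).continuousOn).continuousAt (P.h.isOpen.mem_nhds haj)
    have hΦc : ContinuousAt (fun z => Φ (z, P.s z)) (P.a j) := by
      have h1 := ((hΦ P.W P.s P.h).continuousOn).continuousAt (P.h.isOpen.mem_nhds haj)
      have h2 := Complex.continuous_re.continuousAt.comp h1
      simpa [Function.comp_def] using h2
    have h1 := vanish_of_pole (B := P.B j) P.h haj hΦc (u := fun q => F q - P.pk i q)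
      (hFc.sub hσc) hτ0 hτlim (Φm := fun m => P.wt Φ (τ m))
      (fun m z hz => P.wt_le' Φ (hτ0 m) j hz) hFn
    have h2 : F (P.a j, P.s (P.a j)) = P.pk i (P.a j, P.s (P.a j)) := sub_eq_zero.1 h1
    rw [h2]
    unfold pk
    rw [shf_on haj]
    unfold cutE
    split_ifs with hij
    · subst hij
      rw [qd_self, rho_eq_one (by norm_num)]
      simp
    · have h3 : 1 ≤ qd (P.B i) (P.a i) (P.a j) := by
        by_contra h4
        exact P.hdisj i j hij (P.a j) (not_le.1 h4) (by rw [qd_self]; norm_num)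
      rw [rho_eq_zero h3]
      simp
  · exact norm_split ((P.pk_CD i).mono (by norm_num)) hΦ (P.wt_le Φ (hτ0 0))
      ((hFn 0).trans_lt ENNReal.ofReal_lt_top)
      (integrable_supp_exp (normsq_CD ((P.pk_CD i).mono (by norm_num)))
        (normsq_supp (P.pk_supp i)) hΦ).lintegral_lt_top

end PD

end Vale.Agent.P299.H465
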