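import Vale.Agent.P299.H465.Hor

/-!
P299, helper465: functions on the total space of a cover which live on one sheet.
-/

set_option linter.all false

open MeasureTheory Filter Topology
open scoped ENNReal NNReal ComplexConjugate
open Vale.Agent.P300.L2

namespace Vale.Agent.P299.H465

open Vale.Agent.P300.L2.Sheets

variable {n N : ℕ} {S : Sheets n N}

open Classical in
/-- `g` on the sheet `s` over `W`, zero elsewhere. -/
noncomputable def shf (W : Set (Fin n → ℂ)) (s : (Fin n → ℂ) → ℕ) (g : (Fin n → ℂ) → ℂ)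
    (q : (Fin n → ℂ) × ℕ) : ℂ := if q.1 ∈ W ∧ q.2 = s q.1 then g q.1 else 0

open Classical in
/-- `g` on the sheet `s` over `W`, zero elsewhere, real valued. -/
noncomputable def shr (W : Set (Fin n → ℂ)) (s : (Fin n → ℂ) → ℕ) (g : (Fin n → ℂ) → ℝ)
    (q : (Fin n → ℂ) × ℕ) : ℝ := if q.1 ∈ W ∧ q.2 = s q.1 then g q.1 else 0

variable {W : Set (Fin n → ℂ)} {s : (Fin n → ℂ) → ℕ} {g : (Fin n → ℂ) → ℂ}

theorem shr_cast (g : (Fin n → ℂ) → ℝ) :
    (fun q => ((shr W s g q : ℝ) : ℂ)) = shf W s (fun z => (g z : ℂ)) := by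
  funext q
  unfold shr shf
  split_ifs <;> simp

theorem shf_on {z : Fin n → ℂ} (hz : z ∈ W) : shf W s g (z, s z) = g z := by
  unfold shf
  rw [if_pos ⟨hz, rfl⟩]

theorem shf_off {q : (Fin n → ℂ) × ℕ} (hq : ¬ (q.1 ∈ W ∧ q.2 = s q.1)) : shf W s g q = 0 := by
  unfold shf
  rw [if_neg hq]

theorem shr_on {g : (Fin n → ℂ) → ℝ} {z : Fin n → ℂ} (hz : z ∈ W) :
    shr W s g (z, s z) = g z := by
  unfold shr
  rw [if_pos ⟨hz, rfl⟩]

theorem shr_off {g : (Fin n → ℂ) → ℝ} {q : (Fin n → ℂ) × ℕ} (hq : ¬ (q.1 ∈ W ∧ q.2 = s q.1)) :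
    shr W s g q = 0 := by
  unfold shr
  rw [if_neg hq]

theorem shf_zero {q : (Fin n → ℂ) × ℕ} (hq : g q.1 = 0) : shf W s g q = 0 := by
  unfold shf
  split_ifs
  · exact hq
  · rfl

theorem shr_zero {g : (Fin n → ℂ) → ℝ} {q : (Fin n → ℂ) × ℕ} (hq : g q.1 = 0) :
    shr W s g q = 0 := by
  unfold shr
  split_ifs
  · exact hq
  · rfl

/-- The germ of `shf` along another section. -/
theorem shf_germ (h : S.IsSection W s) {C : Set (Fin n → ℂ)} (hC : IsClosed C) (hCW : C ⊆ W)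
    (hg0 : ∀ z, z ∉ C → g z = 0) {W' : Set (Fin n → ℂ)} {s' : (Fin n → ℂ) → ℕ}
    (h' : S.IsSection W' s') {z : Fin n → ℂ} (hz : z ∈ W') :
    ((fun ζ => shf W s g (ζ, s' ζ)) =ᶠ[𝓝 z] g ∧ z ∈ W ∧ s' z = s z) ∨
      (fun ζ => shf W s g (ζ, s' ζ)) =ᶠ[𝓝 z] fun _ => 0 := by
  by_cases hzC : z ∈ C
  · have hzW := hCW hzC
    by_cases hs : s' z = s z
    · left
      refine ⟨?_, hzW, hs⟩
      filter_upwards [h'.germ h hz hzW hs, h.isOpen.mem_nhds hzW] with ζ h1 h2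
      rw [h1]
      exact shf_on h2
    · right
      filter_upwards [h'.germ_ne h hz hzW hs] with ζ h1
      exact shf_off fun h2 => h1 h2.2
  · right
    filter_upwards [hC.isOpen_compl.mem_nhds hzC] with ζ h1
    exact shf_zero (hg0 _ h1)

theorem shf_CD (h : S.IsSection W s) {C : Set (Fin n → ℂ)} (hC : IsClosed C) (hCW : C ⊆ W)
    (hg0 : ∀ z, z ∉ C → g z = 0) {k : ℕ} (hg : ContDiff ℝ k g) : S.CD k (shf W s g) := by
  intro W' s' h' z hz
  refine ContDiffAt.contDiffWithinAt ?_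
  rcases shf_germ h hC hCW hg0 h' hz with ⟨h1, -, -⟩ | h1
  · exact hg.contDiffAt.congr_of_eventuallyEq h1
  · exact contDiffAt_const.congr_of_eventuallyEq h1

theorem shr_CD (h : S.IsSection W s) {C : Set (Fin n → ℂ)} (hC : IsClosed C) (hCW : C ⊆ W)
    {g : (Fin n → ℂ) → ℝ} (hg0 : ∀ z, z ∉ C → g z = 0) {k : ℕ} (hg : ContDiff ℝ k g) :
    S.CD k (fun q => ((shr W s g q : ℝ) : ℂ)) := by
  rw [shr_cast]
  exact shf_CD h hC hCW (fun z hz => by simp [hg0 z hz]) (Complex.ofRealCLM.contDiff.comp hg)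

theorem Db_shf (h : S.IsSection W s) {z : Fin n → ℂ} (hz : z ∈ W) (j : Fin n) :
    S.Db j (shf W s g) (z, s z) = dzb j g z := by
  rw [Db_apply h hz]
  refine dzb_congr ?_
  filter_upwards [h.isOpen.mem_nhds hz] with ζ hζ
  exact shf_on hζ

theorem D_shf (h : S.IsSection W s) {z : Fin n → ℂ} (hz : z ∈ W) (j : Fin n) :
    S.D j (shf W s g) (z, s z) = dz j g z := by
  rw [D_apply h hz]
  refine dz_congr ?_
  filter_upwards [h.isOpen.mem_nhds hz] with ζ hζ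
  exact shf_on hζ

/-- Off the sheet or outside of `C` all derivatives vanish. -/
theorem Db_shf_off (h : S.IsSection W s) {C : Set (Fin n → ℂ)} (hC : IsClosed C) (hCW : C ⊆ W)
    (hg0 : ∀ z, z ∉ C → g z = 0) {q : (Fin n → ℂ) × ℕ} (hq : q ∈ S.M)
    (hq' : ¬ (q.1 ∈ C ∧ q.2 = s q.1)) (j : Fin n) : S.Db j (shf W s g) q = 0 := by
  obtain ⟨s', W', h', z, hz, rfl⟩ := exists_section' hq
  rw [Db_apply h' hz]
  have h1 : (fun ζ => shf W s g (ζ, s' ζ)) =ᶠ[𝓝 z] fun _ => 0 := by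
    by_cases hzC : z ∈ C
    · have hs : s' z ≠ s z := fun hs => hq' ⟨hzC, hs⟩
      filter_upwards [h'.germ_ne h hz (hCW hzC) hs] with ζ h1
      exact shf_off fun h2 => h1 h2.2
    · filter_upwards [hC.isOpen_compl.mem_nhds hzC] with ζ h1
      exact shf_zero (hg0 _ h1)
  rw [dzb_congr h1, dzb_const]

/-- Levi form on the sheet. -/
theorem levi_shr (h : S.IsSection W s) {g : (Fin n → ℂ) → ℝ} {z : Fin n → ℂ} (hz : z ∈ W)
    (β : Fin n → ℂ) : S.levi (shr W s g) β (z, s z) =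
      (∑ j, ∑ k, dz j (dzb k (fun z => (g z : ℂ))) z * β j * conj (β k)).re := by
  unfold levi
  congr 1
  refine Finset.sum_congr rfl fun j _ => Finset.sum_congr rfl fun k _ => ?_
  congr 2
  rw [shr_cast, D_apply h hz]
  refine dz_congr ?_
  filter_upwards [h.isOpen.mem_nhds hz] with ζ hζ
  exact Db_shf h hζ k

theorem levi_shr_off (h : S.IsSection W s) {C : Set (Fin n → ℂ)} (hC : IsClosed C) (hCW : C ⊆ W)
    {g : (Fin n → ℂ) → ℝ} (hg0 : ∀ z, z ∉ C → g z = 0) {q : (Fin n → ℂ) × ℕ} (hq : q ∈ S.M)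
    (hq' : ¬ (q.1 ∈ C ∧ q.2 = s q.1)) (β : Fin n → ℂ) : S.levi (shr W s g) β q = 0 := by
  obtain ⟨s', W', h', z, hz, rfl⟩ := exists_section' hq
  have h1 : (fun ζ => shf W s (fun z => (g z : ℂ)) (ζ, s' ζ)) =ᶠ[𝓝 z] fun _ => 0 := by
    by_cases hzC : z ∈ C
    · have hs : s' z ≠ s z := fun hs => hq' ⟨hzC, hs⟩
      filter_upwards [h'.germ_ne h hz (hCW hzC) hs] with ζ h1
      exact shf_off fun h2 => h1 h2.2
    · filter_upwards [hC.isOpen_compl.mem_nhds hzC] with ζ h1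
      refine shf_zero ?_
      have := hg0 _ h1
      simp [this]
  unfold levi
  have h2 : ∀ j k, S.D j (S.Db k (fun q => ((shr W s g q : ℝ) : ℂ))) (z, s' z) = 0 := by
    intro j k
    rw [shr_cast, D_apply h' hz]
    have h3 : (fun ζ => S.Db k (shf W s (fun z => (g z : ℂ))) (ζ, s' ζ)) =ᶠ[𝓝 z] fun _ => 0 := by
      filter_upwards [h1.eventually_nhds, h'.isOpen.mem_nhds hz] with ζ h4 h5
      rw [Db_apply h' h5, dzb_congr h4, dzb_const]
    rw [dz_congr h3, dz_const]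
  simp [h2]

end Vale.Agent.P299.H465
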