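import Vale.Agent.P299.H465.Loc

/-!
P299, helper465: vanishing at the poles of the weights.
-/

set_option linter.all false

open MeasureTheory Filter Topology
open scoped ENNReal NNReal ComplexConjugate
open Vale.Agent.P300.L2

namespace Vale.Agent.P299.H465

open Vale.Agent.P300.L2.Sheets

variable {n N : ℕ} {S : Sheets n N}

/-- The measure of the graph of a section. -/
theorem μ_graph {W : Set (Fin n → ℂ)} {s : (Fin n → ℂ) → ℕ} (h : S.IsSection W s) :
    S.μ (smGraph W s) = volume W := by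
  have hm := smGraph_meas h
  rw [← lintegral_indicator_one hm, lintegral_μ (measurable_one.indicator hm)]
  have h1 : ∀ z ∈ S.V, ∑ w ∈ S.fib z, (smGraph W s).indicator (1 : (Fin n → ℂ) × ℕ → ℝ≥0∞) (z, w) =
      W.indicator 1 z := by
    intro z hz
    by_cases hzW : z ∈ W
    · rw [Set.indicator_of_mem hzW, Finset.sum_eq_single (s z)]
      · rw [Set.indicator_of_mem]
        · rfl
        · exact ⟨hzW, rfl⟩
      · intro w _ hw
        exact Set.indicator_of_notMem (fun h2 => hw h2.2) _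
      · intro h2
        exact absurd (h.mem z hzW) h2
    · rw [Set.indicator_of_notMem hzW]
      exact Finset.sum_eq_zero fun w _ => Set.indicator_of_notMem (fun h2 => hzW h2.1) _
  rw [setLIntegral_congr_fun S.isOpen.measurableSet h1, setLIntegral_one_indicator]
  · rw [Set.inter_eq_left.2 h.subset]
  · exact h.isOpen.measurableSet
where
  setLIntegral_one_indicator {A V : Set (Fin n → ℂ)} (hA : MeasurableSet A) :
      ∫⁻ z in V, A.indicator (1 : (Fin n → ℂ) → ℝ≥0∞) z = volume (A ∩ V) := by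
    rw [lintegral_indicator_one hA, Measure.restrict_apply hA]

/-- A function with finite norm for weights with a pole of order `n + 1` at `a` vanishes there. -/
theorem vanish_of_pole {W : Set (Fin n → ℂ)} {s : (Fin n → ℂ) → ℕ} (h : S.IsSection W s)
    {B : Matrix (Fin n) (Fin n) ℂ} {a : Fin n → ℂ} (ha : a ∈ W)
    {Φ : (Fin n → ℂ) × ℕ → ℝ} (hΦ : ContinuousAt (fun z => Φ (z, s z)) a)
    {u : (Fin n → ℂ) × ℕ → ℂ} (hu : ContinuousAt (fun z => u (z, s z)) a)
    {Φm : ℕ → (Fin n → ℂ) × ℕ → ℝ} {τ : ℕ → ℝ} (hτ : ∀ m, 0 < τ m)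
    (hτlim : Tendsto τ atTop (𝓝 0))
    (hle : ∀ m, ∀ z ∈ W, Φm m (z, s z) ≤ Φ (z, s z) + (n + 1) * GG (τ m) (qd B a z))
    {A : ℝ} (hA : ∀ m, ∫⁻ q, ENNReal.ofReal (‖u q‖ ^ 2 * Real.exp (-Φm m q)) ∂S.μ ≤
      ENNReal.ofReal A) : u (a, s a) = 0 := by
  by_contra hne
  have hpos : 0 < ‖u (a, s a)‖ ^ 2 * Real.exp (-Φ (a, s a)) := by
    have : 0 < ‖u (a, s a)‖ := norm_pos_iff.2 hne
    positivity
  set c := ‖u (a, s a)‖ ^ 2 * Real.exp (-Φ (a, s a)) / 2 with hc
  have hc0 : 0 < c := by positivity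
  have hcont : ContinuousAt (fun z => ‖u (z, s z)‖ ^ 2 * Real.exp (-Φ (z, s z))) a :=
    ((hu.norm).pow 2).mul (Real.continuous_exp.continuousAt.comp hΦ.neg)
  have hev : ∀ᶠ z in 𝓝 a, z ∈ W ∧ c ≤ ‖u (z, s z)‖ ^ 2 * Real.exp (-Φ (z, s z)) := by
    have h1 : c < ‖u (a, s a)‖ ^ 2 * Real.exp (-Φ (a, s a)) := by rw [hc]; linarith
    filter_upwards [h.isOpen.mem_nhds ha, hcont.eventually (lt_mem_nhds h1)] with z hz1 hz
      using ⟨hz1, hz.le⟩
  obtain ⟨r, hr, hball⟩ := Metric.eventually_nhds_iff_ball.1 hev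
  -- the constant L
  obtain ⟨L, hL, hqL⟩ : ∃ L : ℝ, 0 < L ∧ ∀ z, qd B a z ≤ L * ‖z - a‖ ^ 2 := by
    refine ⟨n * ‖(Matrix.mulVecLin B).toContinuousLinearMap‖ ^ 2 + 1, by positivity, fun z => ?_⟩
    have h1 : ‖B.mulVec (z - a)‖ ≤ ‖(Matrix.mulVecLin B).toContinuousLinearMap‖ * ‖z - a‖ :=
      (Matrix.mulVecLin B).toContinuousLinearMap.le_opNorm (z - a)
    calc qd B a z ≤ n * ‖B.mulVec (z - a)‖ ^ 2 := nsq_le _
      _ ≤ n * (‖(Matrix.mulVecLin B).toContinuousLinearMap‖ * ‖z - a‖) ^ 2 := by gcongr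
      _ ≤ (n * ‖(Matrix.mulVecLin B).toContinuousLinearMap‖ ^ 2 + 1) * ‖z - a‖ ^ 2 := by
          nlinarith [sq_nonneg ‖z - a‖]
  set v1 : ℝ := (volume (Metric.ball (0 : Fin n → ℂ) 1)).toReal with hv1
  have hv1pos : 0 < v1 := ENNReal.toReal_pos (Metric.measure_ball_pos _ _ one_pos).ne'
    measure_ball_lt_top.ne
  have hfr : Module.finrank ℝ (Fin n → ℂ) = 2 * n := by
    rw [finrank_real_of_complex, Module.finrank_fin_fun]
  -- the key estimate
  have key : ∀ m, τ m ≤ 1 / 2 → τ m ≤ L * r ^ 2 →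
      c * ((4 * τ m) ^ (n + 1))⁻¹ * ((τ m / L) ^ n * v1) ≤ A := by
    intro m h1 h2
    have hτm := hτ m
    set η := Real.sqrt (τ m / L) with hη
    have hη0 : 0 < η := Real.sqrt_pos.2 (by positivity)
    have hη2 : η ^ 2 = τ m / L := Real.sq_sqrt (by positivity)
    have hηr : η ≤ r := by
      refine Real.sqrt_le_iff.2 ⟨hr.le, ?_⟩
      rw [div_le_iff₀ hL, mul_comm]
      exact h2
    have hsub : Metric.ball a η ⊆ W := fun z hz => (hball z (Metric.ball_subset_ball hηr hz)).1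
    have hsec : S.IsSection (Metric.ball a η) s := h.mono Metric.isOpen_ball hsub
    have hval : ∀ q ∈ smGraph (Metric.ball a η) s,
        ENNReal.ofReal (c * ((4 * τ m) ^ (n + 1))⁻¹) ≤
          ENNReal.ofReal (‖u q‖ ^ 2 * Real.exp (-Φm m q)) := by
      rintro ⟨z, w⟩ ⟨hz, hw⟩
      simp only at hz hw
      subst hw
      refine ENNReal.ofReal_le_ofReal ?_
      have h3 := (hball z (Metric.ball_subset_ball hηr hz)).2
      have h4 := hle m z (hsub hz)
      have hzd : ‖z - a‖ < η := by rwa [← dist_eq_norm]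
      have h5 : qd B a z ≤ τ m := by
        calc qd B a z ≤ L * ‖z - a‖ ^ 2 := hqL z
          _ ≤ L * η ^ 2 := by gcongr
          _ = τ m := by rw [hη2]; field_simp
      have h6 : GG (τ m) (qd B a z) ≤ Real.log (4 * τ m) := by
        have h7 := GG_le_log hτm (qd_nonneg B a z) (h5.trans h1)
        have h8 : Real.log (qd B a z + τ m) ≤ Real.log (2 * τ m) :=
          Real.log_le_log (add_pos_of_nonneg_of_pos (qd_nonneg B a z) hτm) (by linarith)
        have h9 : Real.log (4 * τ m) = Real.log (2 * τ m) - Real.log (1 / 2) := by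
          rw [← Real.log_div (by positivity) (by norm_num)]
          congr 1
          ring
        linarith
      have h10 : ((4 * τ m) ^ (n + 1))⁻¹ ≤ Real.exp (-((n + 1) * GG (τ m) (qd B a z))) := by
        rw [← Real.exp_log (show (0 : ℝ) < 4 * τ m by positivity), ← Real.exp_nat_mul,
          ← Real.exp_neg]
        refine Real.exp_le_exp.2 ?_
        push_cast
        have : ((n : ℝ) + 1) * GG (τ m) (qd B a z) ≤ (n + 1) * Real.log (4 * τ m) := by gcongr
        linarith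
      calc c * ((4 * τ m) ^ (n + 1))⁻¹
          ≤ (‖u (z, s z)‖ ^ 2 * Real.exp (-Φ (z, s z))) *
              Real.exp (-((n + 1) * GG (τ m) (qd B a z))) := by gcongr
        _ = ‖u (z, s z)‖ ^ 2 * Real.exp (-(Φ (z, s z) + (n + 1) * GG (τ m) (qd B a z))) := by
            rw [neg_add, Real.exp_add, mul_assoc]
        _ ≤ ‖u (z, s z)‖ ^ 2 * Real.exp (-Φm m (z, s z)) := by gcongr
    have h11 : ENNReal.ofReal (c * ((4 * τ m) ^ (n + 1))⁻¹) * volume (Metric.ball a η) ≤
        ENNReal.ofReal A := by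
      calc ENNReal.ofReal (c * ((4 * τ m) ^ (n + 1))⁻¹) * volume (Metric.ball a η)
          = ∫⁻ q in smGraph (Metric.ball a η) s,
              ENNReal.ofReal (c * ((4 * τ m) ^ (n + 1))⁻¹) ∂S.μ := by
            rw [setLIntegral_const, μ_graph hsec]
        _ ≤ ∫⁻ q in smGraph (Metric.ball a η) s,
              ENNReal.ofReal (‖u q‖ ^ 2 * Real.exp (-Φm m q)) ∂S.μ :=
            setLIntegral_mono' (smGraph_meas hsec) hval
        _ ≤ ∫⁻ q, ENNReal.ofReal (‖u q‖ ^ 2 * Real.exp (-Φm m q)) ∂S.μ :=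
            setLIntegral_le_lintegral _ _
        _ ≤ ENNReal.ofReal A := hA m
    have h12 : volume (Metric.ball a η) = ENNReal.ofReal ((τ m / L) ^ n * v1) := by
      rw [Measure.addHaar_ball_of_pos volume a hη0, hfr, pow_mul, hη2, hv1,
        ENNReal.ofReal_mul (by positivity), ENNReal.ofReal_toReal measure_ball_lt_top.ne]
    rw [h12, ← ENNReal.ofReal_mul (by positivity)] at h11
    have h13 : 0 < c * ((4 * τ m) ^ (n + 1))⁻¹ * ((τ m / L) ^ n * v1) := by positivity
    rcases ENNReal.ofReal_le_ofReal_iff'.1 h11 with h14 | h14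
    · exact h14
    · exact absurd h14 (not_le.2 h13)
  -- contradiction
  have hev2 : ∀ᶠ m in atTop, τ m ≤ 1 / 2 ∧ τ m ≤ L * r ^ 2 := by
    have h1 : (0 : ℝ) < 1 / 2 := by norm_num
    have h2 : 0 < L * r ^ 2 := by positivity
    filter_upwards [hτlim.eventually (gt_mem_nhds h1), hτlim.eventually (gt_mem_nhds h2)]
      with m h3 h4 using ⟨h3.le, h4.le⟩
  set κ := c * ((4 : ℝ) ^ (n + 1))⁻¹ * (L ^ n)⁻¹ * v1 with hκ
  have hκ0 : 0 < κ := by positivity
  have h3 : ∀ᶠ m in atTop, κ ≤ A * τ m := by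
    filter_upwards [hev2] with m hm
    have h4 := key m hm.1 hm.2
    have hτm := hτ m
    have h5 : c * ((4 * τ m) ^ (n + 1))⁻¹ * ((τ m / L) ^ n * v1) = κ / τ m := by
      rw [hκ, mul_pow, div_pow, pow_succ (τ m) n]
      field_simp
    rw [h5, div_le_iff₀ hτm] at h4
    exact h4
  have h4 : Tendsto (fun m => A * τ m) atTop (𝓝 0) := by
    simpa using hτlim.const_mul A
  have h5 := ge_of_tendsto h4 h3
  linarith

end Vale.Agent.P299.H465
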